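import Vale.Agent.P207.H734.TyB
import Vale.Agent.P207.H106.Aff.Zd

/-!
# P207, strict quarter pinching: the type lemma for the zoom data (G2)

`PRep.aff` : the representation on the affine sections. `Rch D v A w` : `w` is reached from `v` by
steps and by changes of frame over the same point, with total linear part `A`.
`zt_all` : all bases of `D.Sm w` are in the closure of the orbit of a basis of `D.Sm v₀`, if the
chains from `v₀` are dense. `tyA` : the input of the closure form (C1) of affine sections.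
-/

set_option linter.all false

open Metric Set Filter Topology
open scoped ContDiff

namespace Vale.Agent.P207.H734

open Vale.Agent.P207.H686 Vale.Agent.P207.H106.Aff

namespace PRep

variable {E W : Type*} [NormedAddCommGroup E] [NormedSpace ℝ E] [FiniteDimensional ℝ E]
  [NormedAddCommGroup W] [NormedSpace ℝ W] [FiniteDimensional ℝ W]

/-- the action on affine sections -/
noncomputable def affRep (ρ : PRep E W) (B : E →L[ℝ] E) :
    (W × (E →L[ℝ] W)) →L[ℝ] (W × (E →L[ℝ] W)) :=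
  ((ρ.rep B).comp (ContinuousLinearMap.fst ℝ W (E →L[ℝ] W))).prod
    ((ContinuousLinearMap.compL ℝ E W W (ρ.rep B)).comp
      (((ContinuousLinearMap.compL ℝ E E W).flip B).comp
        (ContinuousLinearMap.snd ℝ W (E →L[ℝ] W))))

theorem affRep_apply (ρ : PRep E W) (B : E →L[ℝ] E) (p : W × (E →L[ℝ] W)) :
    ρ.affRep B p = (ρ.rep B p.1, (ρ.rep B).comp (p.2.comp B)) := rfl

/-- the derived action on affine sections -/
noncomputable def affD (ρ : PRep E W) : (E →L[ℝ] E) →L[ℝ]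
    ((W × (E →L[ℝ] W)) →L[ℝ] (W × (E →L[ℝ] W))) :=
  LinearMap.toContinuousLinearMap
    { toFun := fun Y => ((ρ.d Y).comp (ContinuousLinearMap.fst ℝ W (E →L[ℝ] W))).prod
        ((ContinuousLinearMap.compL ℝ E W W (ρ.d Y)).comp
            (ContinuousLinearMap.snd ℝ W (E →L[ℝ] W)) +
          ((ContinuousLinearMap.compL ℝ E E W).flip Y).comp
            (ContinuousLinearMap.snd ℝ W (E →L[ℝ] W)))
      map_add' := by
        intro Y Y'
        refine ContinuousLinearMap.ext fun p => Prod.ext ?_ ?_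
        · simp
        · refine ContinuousLinearMap.ext fun x => ?_
          simp
          abel
      map_smul' := by
        intro a Y
        refine ContinuousLinearMap.ext fun p => Prod.ext ?_ ?_
        · simp
        · refine ContinuousLinearMap.ext fun x => ?_
          simp }

theorem affD_apply (ρ : PRep E W) (Y : E →L[ℝ] E) (p : W × (E →L[ℝ] W)) :
    ρ.affD Y p = (ρ.d Y p.1, (ρ.d Y).comp p.2 + p.2.comp Y) := rfl

/-- derivative of a family of continuous linear maps from pointwise derivatives -/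
theorem hasDerivAt_clm {U V : Type*} [NormedAddCommGroup U] [NormedSpace ℝ U]
    [FiniteDimensional ℝ U] [NormedAddCommGroup V] [NormedSpace ℝ V] {f : ℝ → U →L[ℝ] V}
    {f' : U →L[ℝ] V} {t : ℝ} (h : ∀ u, HasDerivAt (fun s => f s u) (f' u) t) :
    HasDerivAt f f' t := by
  rw [hasDerivAt_iff_tendsto_slope]
  simp_rw [hasDerivAt_iff_tendsto_slope] at h
  -- convergence of operators from pointwise convergence
  let b := Module.finBasis ℝ U
  have h1 : ∀ g : U →L[ℝ] V, g = ∑ i, (ContinuousLinearMap.smulRightL ℝ U V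
      (LinearMap.toContinuousLinearMap (b.coord i))) (g (b i)) := by
    intro g
    refine ContinuousLinearMap.ext fun u => ?_
    rw [ContinuousLinearMap.sum_apply]
    conv_lhs => rw [← b.sum_repr u, map_sum]
    refine Finset.sum_congr rfl fun i _ => ?_
    simp
  have h2 : slope f t = fun s => ∑ i, (ContinuousLinearMap.smulRightL ℝ U V
      (LinearMap.toContinuousLinearMap (b.coord i))) (slope (fun s => f s (b i)) t s) := by
    funext s
    conv_lhs => rw [h1 (slope f t s)]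
    refine Finset.sum_congr rfl fun i _ => ?_
    congr 1
  rw [h2, h1 f']
  exact tendsto_finset_sum _ fun i _ =>
    ((ContinuousLinearMap.smulRightL ℝ U V _).continuous.tendsto _).comp (h (b i))

/-- **the representation on affine sections** -/
noncomputable def aff (ρ : PRep E W) : PRep E (W × (E →L[ℝ] W)) where
  rep := ρ.affRep
  d := ρ.affD
  one := by
    refine ContinuousLinearMap.ext fun p => ?_
    rw [affRep_apply, ρ.one]
    rfl
  mul B C := by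
    refine ContinuousLinearMap.ext fun p => ?_
    rw [ContinuousLinearMap.comp_apply, affRep_apply, affRep_apply, affRep_apply, ρ.mul]
    rfl
  cont := by
    refine continuous_clm_apply.2 fun p => ?_
    simp only [affRep_apply]
    exact (ρ.cont.clm_apply continuous_const).prodMk
      (ρ.cont.clm_comp (continuous_const.clm_comp continuous_id))
  der Y := by
    refine hasDerivAt_clm fun p => ?_
    simp only [affRep_apply, affD_apply]
    have h1 : HasDerivAt (fun t : ℝ => ρ.rep (1 + t • Y) p.1) (ρ.d Y p.1) 0 := by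
      have h4 := (ρ.der Y).clm_apply (hasDerivAt_const (0 : ℝ) p.1)
      simpa using h4
    have h2 : HasDerivAt (fun t : ℝ => (1 : E →L[ℝ] E) + t • Y) Y 0 := by
      simpa using ((hasDerivAt_id (0 : ℝ)).smul_const Y).const_add (1 : E →L[ℝ] E)
    have h3 : HasDerivAt (fun t : ℝ => p.2.comp (1 + t • Y)) (p.2.comp Y) 0 := by
      have h4 := (hasDerivAt_const (0 : ℝ) p.2).clm_comp h2
      simpa using h4
    have h5 := (ρ.der Y).clm_comp h3
    have h6 : (ρ.d Y).comp (p.2.comp (1 + (0 : ℝ) • Y)) + (ρ.rep (1 + (0 : ℝ) • Y)).comp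
        (p.2.comp Y) = (ρ.d Y).comp p.2 + p.2.comp Y := by
      rw [zero_smul, add_zero, ρ.one]
      rfl
    rw [h6] at h5
    exact h1.prodMk h5

theorem aff_rep (ρ : PRep E W) (B : E →L[ℝ] E) (p : W × (E →L[ℝ] W)) :
    ρ.aff.rep B p = (ρ.rep B p.1, (ρ.rep B).comp (p.2.comp B)) := rfl

theorem aff_d (ρ : PRep E W) (Y : E →L[ℝ] E) (p : W × (E →L[ℝ] W)) :
    ρ.aff.d Y p = (ρ.d Y p.1, (ρ.d Y).comp p.2 + p.2.comp Y) := rfl

end PRep

variable {k0 : ℕ} {E W X : Type*} [NormedAddCommGroup E] [NormedSpace ℝ E]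
  [FiniteDimensional ℝ E] [NormedAddCommGroup W] [NormedSpace ℝ W] [FiniteDimensional ℝ W]

/-- chains of steps and of changes of frame over the same point -/
inductive Rch (D : ZDk k0 E W X) : X → (E ≃L[ℝ] E) → X → Prop
  | refl (v : X) : Rch D v (ContinuousLinearEquiv.refl ℝ E) v
  | st {v : X} {A : E ≃L[ℝ] E} {v' : X} {A' : E ≃L[ℝ] E} {L : W ≃L[ℝ] W} {v'' : X}
      (h : Rch D v A v') (h' : D.St v' A' L v'') : Rch D v (A.trans A') v''
  | bc {v : X} {A : E ≃L[ℝ] E} {v' : X} {R : E ≃L[ℝ] E} {S : W ≃L[ℝ] W} {v'' : X}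
      (h : Rch D v A v') (h' : D.BC v' 0 R S v'') : Rch D v (A.trans R) v''

/-- the actions on the forms are given by the representation (over one point) -/
structure HasRep0 (D : ZDk k0 E W X) (ρ : PRep E W) : Prop where
  st : ∀ {v A L v'}, D.St v A L v' → ∀ s, L s = ρ.rep (A.symm : E →L[ℝ] E) s
  bc0 : ∀ {v R S v'}, D.BC v 0 R S v' → ∀ s, S s = ρ.rep (R.symm : E →L[ℝ] E) s

/-- the actions on the forms are given by the representation -/
structure HasRep (D : ZDk k0 E W X) (ρ : PRep E W) : Prop where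
  st : ∀ {v A L v'}, D.St v A L v' → ∀ s, L s = ρ.rep (A.symm : E →L[ℝ] E) s
  bc : ∀ {v p R S v'}, D.BC v p R S v' → ∀ s, S s = ρ.rep (R.symm : E →L[ℝ] E) s

theorem HasRep.to0 {D : ZDk k0 E W X} {ρ : PRep E W} (h : HasRep D ρ) : HasRep0 D ρ :=
  ⟨fun h' => h.st h', fun h' => h.bc h'⟩

theorem isUnit_equiv (A : E ≃L[ℝ] E) : IsUnit (A : E →L[ℝ] E) := by
  refine ⟨⟨(A : E →L[ℝ] E), (A.symm : E →L[ℝ] E), ?_, ?_⟩, rfl⟩
  · exact A.coe_comp_coe_symm
  · exact A.coe_symm_comp_coe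

theorem rep_symm_rep {ρ : PRep E W} (A : E ≃L[ℝ] E) (s : W) :
    ρ.rep (A.symm : E →L[ℝ] E) (ρ.rep (A : E →L[ℝ] E) s) = s :=
  ρ.rep_inv (by exact A.coe_comp_coe_symm) s

theorem rep_rep_symm {ρ : PRep E W} (A : E ≃L[ℝ] E) (s : W) :
    ρ.rep (A : E →L[ℝ] E) (ρ.rep (A.symm : E →L[ℝ] E) s) = s :=
  ρ.rep_inv (by exact A.coe_symm_comp_coe) s

/-- the S-bundle along the chains -/
theorem Rch.sm {D : ZDk k0 E W X} {ρ : PRep E W} (hρ : HasRep0 D ρ) {v w : X} {A : E ≃L[ℝ] E}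
    (h : Rch D v A w) (s : W) : s ∈ D.Sm v ↔ ρ.rep (A.symm : E →L[ℝ] E) s ∈ D.Sm w := by
  induction h with
  | refl =>
    have h1 : ρ.rep ((ContinuousLinearEquiv.refl ℝ E).symm : E →L[ℝ] E) s = s := by
      have h2 : (((ContinuousLinearEquiv.refl ℝ E).symm : E ≃L[ℝ] E) : E →L[ℝ] E) = 1 := rfl
      rw [h2, ρ.one]
      rfl
    rw [h1]
  | @st A v' A' L v'' h h' ih =>
    rw [ih, D.sm_step h', hρ.st h']
    have h1 : (((A.trans A').symm : E ≃L[ℝ] E) : E →L[ℝ] E) =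
        (A.symm : E →L[ℝ] E) * (A'.symm : E →L[ℝ] E) := rfl
    rw [h1, ρ.mul]
    rfl
  | @bc A v' R S v'' h h' ih =>
    rw [ih, D.sm_bc h', hρ.bc0 h']
    have h1 : (((A.trans R).symm : E ≃L[ℝ] E) : E →L[ℝ] E) =
        (A.symm : E →L[ℝ] E) * (R.symm : E →L[ℝ] E) := rfl
    rw [h1, ρ.mul]
    rfl

theorem Rch.map {D : ZDk k0 E W X} {ρ : PRep E W} (hρ : HasRep0 D ρ) {v w : X} {A : E ≃L[ℝ] E}
    (h : Rch D v A w) :
    D.Sm w = (D.Sm v).map (ρ.rep (A.symm : E →L[ℝ] E) : W →ₗ[ℝ] W) := by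
  ext s
  constructor
  · intro hs
    refine ⟨ρ.rep (A : E →L[ℝ] E) s, ?_, rep_symm_rep A s⟩
    show _ ∈ D.Sm v
    rw [h.sm hρ, rep_symm_rep]
    exact hs
  · rintro ⟨t, ht, rfl⟩
    exact (h.sm hρ t).1 ht

/-- the chains from `v₀` are dense -/
def DenseFrom (D : ZDk k0 E W X) (v₀ : X) : Prop := ∀ w : X, ∃ (A : ℕ → E ≃L[ℝ] E) (w' : ℕ → X),
  (∀ i, Rch D v₀ (A i) (w' i)) ∧
  TendstoUniformlyOn (fun i => D.N (w' i)) (D.N w) atTop (ball 0 1)

/-- the closeness of the S-bundle (row of 686) -/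
def SmClose (D : ZDk k0 E W X) : Prop := ∀ w : X, ∀ η : ℝ, 0 < η → ∃ ε > 0, ∀ v,
  (∀ x ∈ ball (0 : E) 1, ‖D.N v x - D.N w x‖ ≤ ε) → ∀ p ∈ D.Sm w, ∃ q ∈ D.Sm v, ‖q - p‖ ≤ η * ‖p‖

/-- **all bases of the S-bundle are in the closure of the orbit** -/
theorem zt_all {D : ZDk k0 E W X} {ρ : PRep E W} (hρ : HasRep0 D ρ) (hc : SmClose D) {v₀ : X}
    (hd : DenseFrom D v₀) {k : ℕ} {θ₀ : Fin k → W} (hθ : LinearIndependent ℝ θ₀)
    (hθ0 : ∀ i, θ₀ i ∈ D.Sm v₀) (hk : Module.finrank ℝ (D.Sm v₀) = k) (w : X) :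
    ρ.Zt θ₀ (D.Sm w) := by
  refine ρ.zt_lim fun ε hε => ?_
  obtain ⟨ε', hε', h1⟩ := hc w ε hε
  obtain ⟨A, w', h2, h3⟩ := hd w
  rw [Metric.tendstoUniformlyOn_iff] at h3
  obtain ⟨i, hi⟩ := (h3 ε' hε').exists
  refine ⟨D.Sm (w' i), ?_, h1 (w' i) fun x hx => ?_⟩
  · rw [(h2 i).map hρ]
    exact ρ.zt_orbit hθ hk hθ0 (isUnit_equiv (A i).symm)
  · have h4 := hi x hx
    rw [dist_comm, dist_eq_norm] at h4
    exact h4.le

/-- **the type lemma for the S-bundle** : `F` near `Sm v₀`, `F'` of the type of `Sm y` -/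
theorem ty_quad_sm {D : ZDk k0 E W X} {ρ : PRep E W} (hρ : HasRep0 D ρ) (hc : SmClose D) {v₀ : X}
    (hd : DenseFrom D v₀)
    (he : ∀ (k : ℕ) (θ₀ : Fin k → W), ρ.Eqn θ₀) : ∃ ε > 0, ∃ η > 0, ∃ C, 0 ≤ C ∧ ∀ v,
    (∀ x ∈ ball (0 : E) 1, ‖D.N v x - D.N v₀ x‖ ≤ ε) → ∀ (y : X) (H : E ≃L[ℝ] E) (δ : ℝ),
    0 ≤ δ → δ ≤ η → (∀ p ∈ D.Sm v, ∃ q ∈ D.Sm y, ‖ρ.rep (H : E →L[ℝ] E) q - p‖ ≤ δ * ‖p‖) →
    ∃ Y : E →L[ℝ] E, ‖Y‖ ≤ C * δ ∧ ∀ p ∈ D.Sm v, ∃ q ∈ D.Sm y,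
      ‖ρ.rep (H : E →L[ℝ] E) q - (p + ρ.d Y p)‖ ≤ C * δ ^ 2 * ‖p‖ := by
  obtain ⟨k, hk⟩ : ∃ k, Module.finrank ℝ (D.Sm v₀) = k := ⟨_, rfl⟩
  let b := Module.finBasisOfFinrankEq ℝ (D.Sm v₀) hk
  set θ₀ : Fin k → W := fun i => (b i : W) with hθ₀
  have hli : LinearIndependent ℝ θ₀ := by
    have h1 := b.linearIndependent.map' (D.Sm v₀).subtype (Submodule.ker_subtype _)
    exact h1
  have hmem : ∀ i, θ₀ i ∈ D.Sm v₀ := fun i => (b i).2
  obtain ⟨η, hη, C, hC, h⟩ := ρ.ty_quad (he k θ₀) hli hmem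
  obtain ⟨ε, hε, hcl⟩ := hc v₀ η hη
  refine ⟨ε, hε, η, hη, C, hC, fun v hv y H δ hδ0 hδ hclose => ?_⟩
  obtain ⟨Y, hY1, hY2⟩ := h (D.Sm v) ((D.sm_rank v v₀).trans hk)
    (zt_all hρ hc hd hli hmem hk v) (hcl v hv)
    ((D.Sm y).map (ρ.rep (H : E →L[ℝ] E) : W →ₗ[ℝ] W))
    (ρ.zt_map (zt_all hρ hc hd hli hmem hk y) (isUnit_equiv H)) δ hδ0 hδ (by
      intro p hp
      obtain ⟨q, hq, hq2⟩ := hclose p hp
      exact ⟨ρ.rep (H : E →L[ℝ] E) q, ⟨q, hq, rfl⟩, hq2⟩)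
  refine ⟨Y, hY1, fun p hp => ?_⟩
  obtain ⟨_, ⟨q, hq, rfl⟩, hq2⟩ := hY2 p hp
  exact ⟨q, hq, hq2⟩

/-! ### affine sections -/

/-- the constant part of the derivative of an affine section in the direction `u` -/
noncomputable def Du (u : E) : (W × (E →L[ℝ] W)) →L[ℝ] (W × (E →L[ℝ] W)) :=
  (((ContinuousLinearMap.apply ℝ W u).comp (ContinuousLinearMap.snd ℝ W (E →L[ℝ] W)))).prod 0

theorem Du_apply (u : E) (p : W × (E →L[ℝ] W)) : Du u p = (p.2 u, 0) := rfl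

theorem Du_norm (u : E) : ‖(Du u : (W × (E →L[ℝ] W)) →L[ℝ] (W × (E →L[ℝ] W)))‖ ≤ ‖u‖ := by
  refine ContinuousLinearMap.opNorm_le_bound _ (norm_nonneg _) fun p => ?_
  rw [Du_apply, Prod.norm_def, norm_zero, max_eq_left (norm_nonneg _)]
  calc ‖p.2 u‖ ≤ ‖p.2‖ * ‖u‖ := p.2.le_opNorm u
    _ ≤ ‖p‖ * ‖u‖ := by gcongr; exact norm_snd_le p
    _ = _ := mul_comm _ _

theorem affE_eq {ρ : PRep E W} {L : W ≃L[ℝ] W} {A : E ≃L[ℝ] E}
    (h : ∀ s, L s = ρ.rep (A.symm : E →L[ℝ] E) s) (p : E) (s : W × (E →L[ℝ] W)) :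
    affE L A p s = ρ.aff.rep (A.symm : E →L[ℝ] E) (s + Du p s) := by
  refine Prod.ext ?_ ?_
  · rw [affE_fst, h]
    rfl
  · refine ContinuousLinearMap.ext fun x => ?_
    rw [affE_snd, h]
    show _ = ρ.rep (A.symm : E →L[ℝ] E) ((s.2 + 0) (A.symm x))
    rw [add_zero]

theorem hasRep_aff {D : ZDk k0 E W X} {ρ : PRep E W} (hρ : HasRep D ρ) {k1 : ℕ}
    (hgap : D.lam ^ k1 * (D.Lam * D.mu) < 1) : HasRep0 (D.aff k1 hgap) ρ.aff := by
  have key : ∀ (L : W ≃L[ℝ] W) (A : E ≃L[ℝ] E), (∀ s, L s = ρ.rep (A.symm : E →L[ℝ] E) s) →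
      ∀ s, affE L A 0 s = ρ.aff.rep (A.symm : E →L[ℝ] E) s := by
    intro L A h s
    rw [affE_eq h]
    congr 1
    refine Prod.ext ?_ ?_
    · show s.1 + s.2 0 = s.1
      rw [map_zero, add_zero]
    · show s.2 + 0 = s.2
      rw [add_zero]
  constructor
  · rintro v A L v' ⟨L', h1, rfl⟩ s
    exact key L' A (hρ.st h1) s
  · rintro v R S v' ⟨S', h1, rfl⟩ s
    exact key S' R (hρ.bc h1) s

theorem rch_aff {D : ZDk k0 E W X} {k1 : ℕ} (hgap : D.lam ^ k1 * (D.Lam * D.mu) < 1) {v w : X}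
    {A : E ≃L[ℝ] E} (h : Rch D v A w) : Rch (D.aff k1 hgap) v A w := by
  induction h with
  | refl => exact Rch.refl _
  | st h h' ih => exact Rch.st ih ⟨_, h', rfl⟩
  | bc h h' ih => exact Rch.bc ih ⟨_, h', rfl⟩

theorem aff_close {D : ZDk k0 E W X} {k1 : ℕ} (hgap : D.lam ^ k1 * (D.Lam * D.mu) < 1) {v w : X}
    {ε : ℝ} (h : ∀ x ∈ ball (0 : E) 1, ‖D.N v x - D.N w x‖ ≤ ε) :
    ∀ x ∈ ball (0 : E) 1, ‖(D.aff k1 hgap).N v x - (D.aff k1 hgap).N w x‖ ≤ ε * 2 := by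
  intro x hx
  have h2 : (D.aff k1 hgap).N v x - (D.aff k1 hgap).N w x
      = (D.N v x - D.N w x).comp (ev x) := rfl
  rw [h2]
  refine (ContinuousLinearMap.opNorm_comp_le _ _).trans ?_
  have h4 := ev_norm (E := E) (W := W) (mem_ball_zero_iff.1 hx).le
  have h5 := h x hx
  exact mul_le_mul h5 h4 (norm_nonneg _) ((norm_nonneg _).trans h5)

theorem denseFrom_aff {D : ZDk k0 E W X} {k1 : ℕ} (hgap : D.lam ^ k1 * (D.Lam * D.mu) < 1)
    {v₀ : X} (h : DenseFrom D v₀) : DenseFrom (D.aff k1 hgap) v₀ := by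
  intro w
  obtain ⟨A, w', h1, h2⟩ := h w
  refine ⟨A, w', fun i => rch_aff hgap (h1 i), ?_⟩
  rw [Metric.tendstoUniformlyOn_iff] at h2 ⊢
  intro ε hε
  filter_upwards [h2 (ε / 4) (by positivity)] with i hi x hx
  have h3 : ∀ y ∈ ball (0 : E) 1, ‖D.N w y - D.N (w' i) y‖ ≤ ε / 4 := by
    intro y hy
    have := hi y hy
    rw [dist_eq_norm] at this
    exact this.le
  have h4 := aff_close hgap h3 x hx
  rw [dist_eq_norm]
  linarith

/-- **(C1'), the input of USE 1**: near the recurrent frame `v₀` the constant parts of the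
derivatives of the sections are in the `gl(E)`-direction, modulo the sections -/
theorem tyA {D : ZDk k0 E W X} {ρ : PRep E W} (hρ : HasRep D ρ) {k1 : ℕ}
    (hgap : D.lam ^ k1 * (D.Lam * D.mu) < 1) (hc : SmClose (D.aff k1 hgap)) {v₀ : X}
    (hd : DenseFrom D v₀) (he : ∀ (k : ℕ) (θ₀ : Fin k → W × (E →L[ℝ] W)), ρ.aff.Eqn θ₀) :
    ∃ ε > 0, ∃ C, 0 ≤ C ∧ ∀ v, (∀ x ∈ ball (0 : E) 1, ‖D.N v x - D.N v₀ x‖ ≤ ε) → ∀ u : E,
      ∃ Y : E →L[ℝ] E, ‖Y‖ ≤ C * ‖u‖ ∧ ∀ p ∈ (D.aff k1 hgap).Sm v,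
        ((p.2 u, 0) : W × (E →L[ℝ] W)) - ρ.aff.d Y p ∈ (D.aff k1 hgap).Sm v := by
  set D' := D.aff k1 hgap with hD'
  have hρ' : HasRep0 D' ρ.aff := hasRep_aff hρ hgap
  have hd' : DenseFrom D' v₀ := denseFrom_aff hgap hd
  obtain ⟨k, hk⟩ : ∃ k, Module.finrank ℝ (D'.Sm v₀) = k := ⟨_, rfl⟩
  let b := Module.finBasisOfFinrankEq ℝ (D'.Sm v₀) hk
  set θ₀ : Fin k → W × (E →L[ℝ] W) := fun i => (b i : W × (E →L[ℝ] W)) with hθ₀
  have hli : LinearIndependent ℝ θ₀ :=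
    b.linearIndependent.map' (D'.Sm v₀).subtype (Submodule.ker_subtype _)
  have hmem : ∀ i, θ₀ i ∈ D'.Sm v₀ := fun i => (b i).2
  have hzt : ∀ w, ρ.aff.Zt θ₀ (D'.Sm w) := zt_all hρ' hc hd' hli hmem hk
  obtain ⟨η, hη, C, hC, h⟩ := ρ.aff.ty_lin (he k θ₀) hli hmem
  obtain ⟨ε, hε, hcl⟩ := hc v₀ η hη
  refine ⟨ε / 2, by positivity, C, hC, fun v hv u => ?_⟩
  have hclose : ∀ p ∈ D'.Sm v₀, ∃ q ∈ D'.Sm v, ‖q - p‖ ≤ η * ‖p‖ :=
    hcl v fun x hx => (aff_close hgap hv x hx).trans (by linarith)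
  -- the translated subspaces
  have htr : ∀ t : ℝ, t • u ∈ ball (0 : E) 1 → ρ.aff.Zt θ₀ ((D'.Sm v).map
      ((1 + t • Du u : (W × (E →L[ℝ] W)) →L[ℝ] (W × (E →L[ℝ] W))) :
        (W × (E →L[ℝ] W)) →ₗ[ℝ] (W × (E →L[ℝ] W)))) := by
    intro t ht
    obtain ⟨R, S, v', hbc⟩ := D.BC_ex v (t • u) ht
    have hbc' : D'.BC v (t • u) R (affE S R (t • u)) v' := ⟨S, hbc, rfl⟩
    have h1 : (D'.Sm v).map ((1 + t • Du u : (W × (E →L[ℝ] W)) →L[ℝ] (W × (E →L[ℝ] W))) :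
        (W × (E →L[ℝ] W)) →ₗ[ℝ] (W × (E →L[ℝ] W))) =
        (D'.Sm v').map (ρ.aff.rep (R : E →L[ℝ] E) :
          (W × (E →L[ℝ] W)) →ₗ[ℝ] (W × (E →L[ℝ] W))) := by
      have h2 : ∀ s, ρ.aff.rep (R : E →L[ℝ] E) (affE S R (t • u) s) = s + t • Du u s := by
        intro s
        rw [affE_eq (hρ.bc hbc)]
        have h3 : ρ.aff.rep (R : E →L[ℝ] E) (ρ.aff.rep (R.symm : E →L[ℝ] E) (s + Du (t • u) s)) =
            s + Du (t • u) s := rep_rep_symm (ρ := ρ.aff) R _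
        rw [h3]
        congr 1
        refine Prod.ext ?_ ?_
        · show s.2 (t • u) = t • s.2 u
          rw [map_smul]
        · show (0 : E →L[ℝ] W) = t • 0
          rw [smul_zero]
      ext s
      constructor
      · rintro ⟨s', hs', rfl⟩
        exact ⟨affE S R (t • u) s', (D'.sm_bc hbc' s').1 hs', h2 s'⟩
      · rintro ⟨s', hs', rfl⟩
        refine ⟨(affE S R (t • u)).symm s', ?_, ?_⟩
        · show _ ∈ D'.Sm v
          rw [D'.sm_bc hbc', ContinuousLinearEquiv.apply_symm_apply]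
          exact hs'
        · have h4 := h2 ((affE S R (t • u)).symm s')
          rw [ContinuousLinearEquiv.apply_symm_apply] at h4
          exact h4.symm
    rw [h1]
    exact ρ.aff.zt_map (hzt v') (isUnit_equiv R)
  have hev : ∀ᶠ t : ℝ in 𝓝[≠] 0, t • u ∈ ball (0 : E) 1 := by
    have h1 : Tendsto (fun t : ℝ => t • u) (𝓝 0) (𝓝 0) := by
      have : Continuous fun t : ℝ => t • u := by fun_prop
      simpa using this.tendsto 0
    exact (h1.mono_left nhdsWithin_le_nhds).eventually (ball_mem_nhds 0 one_pos)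
  obtain ⟨Y, hY1, hY2⟩ := h (D'.Sm v) ((D'.sm_rank v v₀).trans hk) (hzt v) hclose (Du u)
    (hev.mono htr).frequently
  exact ⟨Y, hY1.trans (by gcongr; exact Du_norm u), fun p hp => hY2 p hp⟩

end Vale.Agent.P207.H734
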