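import Vale.Agent.P207.H395.NSys

/-!
# P207, block SPEC, row (R1): differential operators over a Hilbert space system,
# order calculus and the a priori estimates
-/

open Filter Topology
open scoped InnerProductSpace

noncomputable section

namespace Vale.Agent.P207.H734

open H395

variable {ι : Type} [Fintype ι] {H : Type} [NormedAddCommGroup H] [InnerProductSpace ℝ H]
  [CompleteSpace H]

variable (S : HSys ι H)

/-! ## The gauges `nS` -/

theorem nS_nonneg (s : ℕ) (u : S.A) : 0 ≤ S.nS s u := by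
  induction s generalizing u with
  | zero => exact norm_nonneg _
  | succ s ih => exact add_nonneg (ih u) (Finset.sum_nonneg fun i _ => ih _)

theorem nS_succ (s : ℕ) (u : S.A) : S.nS (s + 1) u = S.nS s u + ∑ i, S.nS s (S.X i u) := rfl

theorem nS_zero_left (u : S.A) : S.nS 0 u = ‖(u : H)‖ := rfl

theorem nS_le_succ (s : ℕ) (u : S.A) : S.nS s u ≤ S.nS (s + 1) u := by
  rw [nS_succ]
  exact le_add_of_nonneg_right (Finset.sum_nonneg fun i _ => nS_nonneg S _ _)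

theorem nS_mono {s t : ℕ} (h : s ≤ t) (u : S.A) : S.nS s u ≤ S.nS t u := by
  induction h with
  | refl => exact le_rfl
  | step _ ih => exact ih.trans (nS_le_succ S _ u)

theorem norm_le_nS (s : ℕ) (u : S.A) : ‖(u : H)‖ ≤ S.nS s u :=
  nS_mono S (Nat.zero_le s) u

theorem nS_X_le (s : ℕ) (i : ι) (u : S.A) : S.nS s (S.X i u) ≤ S.nS (s + 1) u := by
  rw [nS_succ]
  exact (Finset.single_le_sum (f := fun i => S.nS s (S.X i u)) (fun _ _ => nS_nonneg S _ _)
    (Finset.mem_univ i)).trans (le_add_of_nonneg_left (nS_nonneg S _ _))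

theorem nS_add (s : ℕ) (u v : S.A) : S.nS s (u + v) ≤ S.nS s u + S.nS s v := by
  induction s generalizing u v with
  | zero => exact norm_add_le _ _
  | succ s ih =>
    simp only [nS_succ, map_add]
    have h1 : ∑ i, S.nS s (S.X i u + S.X i v) ≤
        ∑ i, S.nS s (S.X i u) + ∑ i, S.nS s (S.X i v) := by
      rw [← Finset.sum_add_distrib]
      exact Finset.sum_le_sum fun i _ => ih _ _
    linarith [ih u v]

theorem nS_smul (s : ℕ) (c : ℝ) (u : S.A) : S.nS s (c • u) = |c| * S.nS s u := by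
  induction s generalizing u with
  | zero =>
    rw [nS_zero_left, nS_zero_left, Submodule.coe_smul, norm_smul, Real.norm_eq_abs]
  | succ s ih =>
    simp only [nS_succ, map_smul, ih, mul_add, Finset.mul_sum]

theorem nS_zero (s : ℕ) : S.nS s (0 : S.A) = 0 := by
  have h := nS_smul S s 0 (0 : S.A)
  simpa using h

theorem nS_neg (s : ℕ) (u : S.A) : S.nS s (-u) = S.nS s u := by
  have h := nS_smul S s (-1) u
  simpa using h

theorem nS_sub (s : ℕ) (u v : S.A) : S.nS s (u - v) ≤ S.nS s u + S.nS s v := by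
  rw [sub_eq_add_neg]
  exact (nS_add S s u (-v)).trans (by rw [nS_neg])

theorem nS_sub_comm (s : ℕ) (u v : S.A) : S.nS s (u - v) = S.nS s (v - u) := by
  rw [← nS_neg S s (u - v), neg_sub]

theorem nS_sum {κ : Type*} (t : Finset κ) (s : ℕ) (u : κ → S.A) :
    S.nS s (∑ k ∈ t, u k) ≤ ∑ k ∈ t, S.nS s (u k) := by
  classical
  induction t using Finset.induction_on with
  | empty => simp [nS_zero]
  | insert a t ha ih =>
    rw [Finset.sum_insert ha, Finset.sum_insert ha]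
    exact (nS_add S s _ _).trans (by linarith)

/-- the gauge of order `s + t` by the gauges of order `s` -/
theorem nS_succ_le_of {s : ℕ} {u : S.A} {K : ℝ} (h0 : S.nS s u ≤ K)
    (h1 : ∀ i, S.nS s (S.X i u) ≤ K) : S.nS (s + 1) u ≤ (1 + Fintype.card ι) * K := by
  rw [nS_succ]
  calc S.nS s u + ∑ i, S.nS s (S.X i u) ≤ K + ∑ _i : ι, K :=
        add_le_add h0 (Finset.sum_le_sum fun i _ => h1 i)
    _ = (1 + Fintype.card ι) * K := by simp; ring

/-! ## Differential operators -/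

/-- a smooth multiplier on smooth vectors -/
def TA (P : H →L[ℝ] H) (hP : P ∈ S.T) : S.A →ₗ[ℝ] S.A where
  toFun u := ⟨P u, S.T_mem P hP u u.2⟩
  map_add' u v := by apply Subtype.ext; simp
  map_smul' c u := by apply Subtype.ext; simp

@[simp] theorem coe_TA (P : H →L[ℝ] H) (hP : P ∈ S.T) (u : S.A) :
    (TA S P hP u : H) = P (u : H) := rfl

/-- differential operators of order `≤ m` -/
inductive IsDO : ℕ → (S.A →ₗ[ℝ] S.A) → Prop
  | mul (P : H →L[ℝ] H) (hP : P ∈ S.T) : IsDO 0 (TA S P hP)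
  | add {m : ℕ} {D E : S.A →ₗ[ℝ] S.A} : IsDO m D → IsDO m E → IsDO m (D + E)
  | succ {m : ℕ} {D : S.A →ₗ[ℝ] S.A} : IsDO m D → IsDO (m + 1) D
  | compX {m : ℕ} {D : S.A →ₗ[ℝ] S.A} (i : ι) : IsDO m D → IsDO (m + 1) (D ∘ₗ S.X i)

variable {S}

theorem IsDO.mono {m l : ℕ} (h : m ≤ l) {D : S.A →ₗ[ℝ] S.A} (hD : IsDO S m D) : IsDO S l D := by
  induction h with
  | refl => exact hD
  | step _ ih => exact ih.succ

theorem isDO_zero (m : ℕ) : IsDO S m 0 := by
  refine IsDO.mono (Nat.zero_le m) ?_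
  have h := IsDO.mul (S := S) 0 S.T.zero_mem
  have e : TA S 0 S.T.zero_mem = 0 := by
    ext u; simp
  rwa [e] at h

theorem isDO_one (m : ℕ) : IsDO S m LinearMap.id := by
  refine IsDO.mono (Nat.zero_le m) ?_
  have h := IsDO.mul (S := S) 1 S.T.one_mem
  have e : TA S 1 S.T.one_mem = LinearMap.id := by
    ext u; simp
  rwa [e] at h

theorem isDO_X (i : ι) : IsDO S 1 (S.X i) := by
  have h := IsDO.compX i (isDO_one (S := S) 0)
  simpa using h

theorem TA_comp_TA {P Q : H →L[ℝ] H} (hP : P ∈ S.T) (hQ : Q ∈ S.T) :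
    TA S P hP ∘ₗ TA S Q hQ = TA S (P * Q) (S.T.mul_mem hP hQ) := by
  ext u; simp

theorem IsDO.TA_comp {P : H →L[ℝ] H} (hP : P ∈ S.T) {m : ℕ} {D : S.A →ₗ[ℝ] S.A}
    (hD : IsDO S m D) : IsDO S m (TA S P hP ∘ₗ D) := by
  induction hD with
  | mul Q hQ => rw [TA_comp_TA]; exact IsDO.mul _ _
  | add _ _ ih1 ih2 => rw [LinearMap.comp_add]; exact ih1.add ih2
  | succ _ ih => exact ih.succ
  | compX i _ ih => rw [← LinearMap.comp_assoc]; exact ih.compX i

theorem IsDO.smul (c : ℝ) {m : ℕ} {D : S.A →ₗ[ℝ] S.A} (hD : IsDO S m D) : IsDO S m (c • D) := by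
  have h := IsDO.TA_comp (S.T.smul_mem S.T.one_mem c) hD
  have e : TA S (c • 1) (S.T.smul_mem S.T.one_mem c) ∘ₗ D = c • D := by
    ext u; simp
  rwa [e] at h

theorem IsDO.neg {m : ℕ} {D : S.A →ₗ[ℝ] S.A} (hD : IsDO S m D) : IsDO S m (-D) := by
  have h := hD.smul (-1)
  have e : (-1 : ℝ) • D = -D := by ext u; simp
  rwa [e] at h

theorem IsDO.sub {m : ℕ} {D E : S.A →ₗ[ℝ] S.A} (hD : IsDO S m D) (hE : IsDO S m E) :
    IsDO S m (D - E) := by
  rw [sub_eq_add_neg]; exact hD.add hE.neg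

theorem IsDO.sum {κ : Type*} (t : Finset κ) {m : ℕ} {D : κ → S.A →ₗ[ℝ] S.A}
    (hD : ∀ k ∈ t, IsDO S m (D k)) : IsDO S m (∑ k ∈ t, D k) := by
  classical
  induction t using Finset.induction_on with
  | empty => simpa using isDO_zero m
  | insert a t ha ih =>
    rw [Finset.sum_insert ha]
    exact (hD a (Finset.mem_insert_self a t)).add
      (ih fun k hk => hD k (Finset.mem_insert_of_mem hk))

theorem exists_X_comp_TA {P : H →L[ℝ] H} (hP : P ∈ S.T) (i : ι) : ∃ (Q : H →L[ℝ] H)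
    (hQ : Q ∈ S.T), S.X i ∘ₗ TA S P hP = TA S P hP ∘ₗ S.X i + TA S Q hQ := by
  obtain ⟨Q, hQ, h⟩ := S.T_comm i P hP
  refine ⟨Q, hQ, ?_⟩
  ext u
  exact h u

theorem IsDO.X_comp (i : ι) {m : ℕ} {D : S.A →ₗ[ℝ] S.A} (hD : IsDO S m D) :
    IsDO S (m + 1) (S.X i ∘ₗ D) := by
  induction hD with
  | mul P hP =>
    obtain ⟨Q, hQ, h⟩ := exists_X_comp_TA hP i
    rw [h]
    exact ((IsDO.mul P hP).compX i).add (IsDO.mul Q hQ).succ
  | add _ _ ih1 ih2 => rw [LinearMap.comp_add]; exact ih1.add ih2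
  | succ _ ih => exact ih.succ
  | compX j _ ih => rw [← LinearMap.comp_assoc]; exact ih.compX j

/-- composition of differential operators -/
theorem IsDO.comp {m l : ℕ} {D E : S.A →ₗ[ℝ] S.A} (hD : IsDO S m D) (hE : IsDO S l E) :
    IsDO S (m + l) (D ∘ₗ E) := by
  induction hD generalizing l E with
  | mul P hP => exact (hE.TA_comp hP).mono (by omega)
  | add _ _ ih1 ih2 => rw [LinearMap.add_comp]; exact (ih1 hE).add (ih2 hE)
  | succ _ ih => exact (ih hE).mono (by omega)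
  | compX i _ ih =>
    rw [LinearMap.comp_assoc]
    exact (ih (hE.X_comp i)).mono (by omega)

theorem IsDO.comp_TA {P : H →L[ℝ] H} (hP : P ∈ S.T) {m : ℕ} {D : S.A →ₗ[ℝ] S.A}
    (hD : IsDO S m D) : IsDO S m (D ∘ₗ TA S P hP) := by
  simpa using hD.comp (IsDO.mul P hP)

theorem exists_X_comm_X (i j : ι) : ∃ E : S.A →ₗ[ℝ] S.A, IsDO S 1 E ∧
    S.X i ∘ₗ S.X j = S.X j ∘ₗ S.X i + E := by
  obtain ⟨c, hc, h⟩ := S.comm i j
  refine ⟨∑ k, TA S (c k) (hc k) ∘ₗ S.X k,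
    IsDO.sum _ fun k _ => (IsDO.mul (c k) (hc k)).compX k, ?_⟩
  ext u
  have h1 := h u
  simp only [LinearMap.coe_comp, Function.comp_apply, LinearMap.add_apply, LinearMap.coe_sum,
    Finset.sum_apply, Submodule.coe_add, AddSubmonoidClass.coe_finsetSum, coe_TA]
  rw [← h1]; abel

/-- the commutator of a derivation with a differential operator -/
theorem IsDO.comm_X (i : ι) {m : ℕ} {D : S.A →ₗ[ℝ] S.A} (hD : IsDO S m D) :
    IsDO S m (S.X i ∘ₗ D - D ∘ₗ S.X i) := by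
  induction hD with
  | mul P hP =>
    obtain ⟨Q, hQ, h⟩ := exists_X_comp_TA hP i
    rw [h, add_sub_cancel_left]
    exact IsDO.mul Q hQ
  | @add m D E _ _ ih1 ih2 =>
    have e : S.X i ∘ₗ (D + E) - (D + E) ∘ₗ S.X i =
        (S.X i ∘ₗ D - D ∘ₗ S.X i) + (S.X i ∘ₗ E - E ∘ₗ S.X i) := by
      rw [LinearMap.comp_add, LinearMap.add_comp]; abel
    rw [e]; exact ih1.add ih2
  | succ _ ih => exact ih.succ
  | @compX m D j hD ih =>
    obtain ⟨E, hE, h⟩ := exists_X_comm_X (S := S) i j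
    have e : S.X i ∘ₗ (D ∘ₗ S.X j) - (D ∘ₗ S.X j) ∘ₗ S.X i =
        (S.X i ∘ₗ D - D ∘ₗ S.X i) ∘ₗ S.X j + D ∘ₗ E := by
      have h2 : D ∘ₗ E = D ∘ₗ (S.X i ∘ₗ S.X j) - D ∘ₗ (S.X j ∘ₗ S.X i) := by
        rw [h, LinearMap.comp_add]; abel
      rw [h2, LinearMap.sub_comp, LinearMap.comp_assoc, LinearMap.comp_assoc,
        LinearMap.comp_assoc]
      abel
    rw [e]
    exact (ih.compX j).add (hD.comp hE)

/-- differential operators have adjoints -/
theorem IsDO.exists_adj {m : ℕ} {D : S.A →ₗ[ℝ] S.A} (hD : IsDO S m D) :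
    ∃ D' : S.A →ₗ[ℝ] S.A, IsDO S m D' ∧
      ∀ u v : S.A, ⟪(D u : H), (v : H)⟫_ℝ = ⟪(u : H), (D' v : H)⟫_ℝ := by
  induction hD with
  | mul P hP =>
    refine ⟨TA S _ (S.T_adj P hP), IsDO.mul _ _, fun u v => ?_⟩
    rw [coe_TA, coe_TA, ContinuousLinearMap.adjoint_inner_right]
  | add _ _ ih1 ih2 =>
    obtain ⟨D1, h1, h1'⟩ := ih1
    obtain ⟨D2, h2, h2'⟩ := ih2
    refine ⟨D1 + D2, h1.add h2, fun u v => ?_⟩
    simp only [LinearMap.add_apply, Submodule.coe_add, inner_add_left, inner_add_right, h1', h2']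
  | succ _ ih =>
    obtain ⟨D1, h1, h1'⟩ := ih
    exact ⟨D1, h1.succ, h1'⟩
  | compX i _ ih =>
    obtain ⟨D1, h1, h1'⟩ := ih
    refine ⟨-(S.X i ∘ₗ D1), (h1.X_comp i).neg, fun u v => ?_⟩
    simp only [LinearMap.coe_comp, Function.comp_apply, LinearMap.neg_apply, Submodule.coe_neg,
      inner_neg_right]
    rw [h1', S.skew]

/-- multipliers are bounded in all gauges -/
theorem exists_nS_TA_le {P : H →L[ℝ] H} (hP : P ∈ S.T) (s : ℕ) :
    ∃ C : ℝ, 0 ≤ C ∧ ∀ u : S.A, S.nS s (TA S P hP u) ≤ C * S.nS s u := by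
  induction s generalizing P with
  | zero => exact ⟨‖P‖, norm_nonneg _, fun u => P.le_opNorm _⟩
  | succ s ih =>
    choose Q hQ h using fun i => exists_X_comp_TA hP i
    obtain ⟨C, hC, h1⟩ := ih hP
    choose C' hC' h2 using fun i => ih (hQ i)
    have hC'0 : 0 ≤ ∑ i, C' i := Finset.sum_nonneg fun i _ => hC' i
    refine ⟨C + ∑ i, C' i, by positivity, fun u => ?_⟩
    have h3 : ∀ i, S.nS s (S.X i (TA S P hP u)) ≤ C * S.nS s (S.X i u) + C' i * S.nS s u := by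
      intro i
      have e : S.X i (TA S P hP u) = TA S P hP (S.X i u) + TA S (Q i) (hQ i) u :=
        congrArg (fun D : S.A →ₗ[ℝ] S.A => D u) (h i)
      rw [e]
      exact (nS_add S s _ _).trans (add_le_add (h1 _) (h2 i _))
    rw [nS_succ]
    calc S.nS s (TA S P hP u) + ∑ i, S.nS s (S.X i (TA S P hP u))
        ≤ C * S.nS s u + ∑ i, (C * S.nS s (S.X i u) + C' i * S.nS s u) :=
          add_le_add (h1 u) (Finset.sum_le_sum fun i _ => h3 i)
      _ = C * S.nS (s + 1) u + (∑ i, C' i) * S.nS s u := by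
          rw [Finset.sum_add_distrib, ← Finset.mul_sum, ← Finset.sum_mul, nS_succ]; ring
      _ ≤ C * S.nS (s + 1) u + (∑ i, C' i) * S.nS (s + 1) u := by
          have := mul_le_mul_of_nonneg_left (nS_le_succ S s u) hC'0
          linarith
      _ = _ := by ring

/-- differential operators of order `m` lose `m` derivatives -/
theorem IsDO.exists_nS_le {m : ℕ} {D : S.A →ₗ[ℝ] S.A} (hD : IsDO S m D) (s : ℕ) :
    ∃ C : ℝ, 0 ≤ C ∧ ∀ u : S.A, S.nS s (D u) ≤ C * S.nS (s + m) u := by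
  induction hD with
  | mul P hP => exact exists_nS_TA_le hP s
  | add _ _ ih1 ih2 =>
    obtain ⟨C1, hC1, h1⟩ := ih1
    obtain ⟨C2, hC2, h2⟩ := ih2
    refine ⟨C1 + C2, by positivity, fun u => ?_⟩
    rw [LinearMap.add_apply, add_mul]
    exact (nS_add S s _ _).trans (add_le_add (h1 u) (h2 u))
  | succ _ ih =>
    obtain ⟨C1, hC1, h1⟩ := ih
    exact ⟨C1, hC1, fun u => (h1 u).trans
      (mul_le_mul_of_nonneg_left (nS_le_succ S _ u) hC1)⟩
  | compX i _ ih =>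
    obtain ⟨C1, hC1, h1⟩ := ih
    refine ⟨C1, hC1, fun u => ?_⟩
    rw [LinearMap.comp_apply]
    exact (h1 _).trans (mul_le_mul_of_nonneg_left (nS_X_le S _ i u) hC1)

/-! ## A priori estimates -/

variable (S)

/-- the operator `- ∑ X_i X_i + E` -/
def Lap (E : S.A →ₗ[ℝ] S.A) : S.A →ₗ[ℝ] S.A := -(∑ i, S.X i ∘ₗ S.X i) + E

theorem Lap_apply (E : S.A →ₗ[ℝ] S.A) (u : S.A) :
    Lap S E u = -(∑ i, S.X i (S.X i u)) + E u := by
  simp [Lap]

variable {S}

theorem isDO_Lap {E : S.A →ₗ[ℝ] S.A} (hE : IsDO S 1 E) : IsDO S 2 (Lap S E) :=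
  (IsDO.sum _ fun i _ => (isDO_X i).X_comp i).neg.add hE.succ

/-- the commutator of `L` with a derivation has order two -/
theorem isDO_Lap_comm {E : S.A →ₗ[ℝ] S.A} (hE : IsDO S 1 E) (j : ι) :
    IsDO S 2 (Lap S E ∘ₗ S.X j - S.X j ∘ₗ Lap S E) := by
  have h := ((isDO_Lap hE).comm_X j).neg
  rwa [neg_sub] at h

theorem isDO_Lap_adj {E E' : S.A →ₗ[ℝ] S.A}
    (h : ∀ u v : S.A, ⟪(E u : H), (v : H)⟫_ℝ = ⟪(u : H), (E' v : H)⟫_ℝ) (u v : S.A) :
    ⟪(Lap S E u : H), (v : H)⟫_ℝ = ⟪(u : H), (Lap S E' v : H)⟫_ℝ := by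
  rw [Lap_apply, Lap_apply]
  simp only [Submodule.coe_add, Submodule.coe_neg, AddSubmonoidClass.coe_finsetSum,
    inner_add_left, inner_add_right, inner_neg_left, inner_neg_right, sum_inner, inner_sum, h]
  congr 2
  refine Finset.sum_congr rfl fun i _ => ?_
  rw [S.skew, S.skew, neg_neg]

/-- the energy identity -/
theorem energy_identity (E : S.A →ₗ[ℝ] S.A) (u : S.A) :
    ∑ i, ‖(S.X i u : H)‖ ^ 2 = ⟪(Lap S E u : H), (u : H)⟫_ℝ - ⟪(E u : H), (u : H)⟫_ℝ := by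
  rw [Lap_apply]
  simp only [Submodule.coe_add, Submodule.coe_neg, AddSubmonoidClass.coe_finsetSum,
    inner_add_left, inner_neg_left, sum_inner]
  rw [add_sub_cancel_right, ← Finset.sum_neg_distrib]
  refine Finset.sum_congr rfl fun i _ => ?_
  rw [S.skew, neg_neg, real_inner_self_eq_norm_sq]

/-- an elementary absorption -/
theorem le_of_sq_le {x t c : ℝ} (ht : 0 ≤ t) (hc : 0 ≤ c)
    (h : x ^ 2 ≤ c * t ^ 2 + c * t * x) : x ≤ (1 + c) * t := by
  by_contra hcon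
  push Not at hcon
  have h1 : 0 ≤ (1 + c) * t := by positivity
  have hx1 : 0 < x := lt_of_le_of_lt h1 hcon
  have h2 : (1 + c) * t * x < x * x := mul_lt_mul_of_pos_right hcon hx1
  have h3 : t * ((1 + c) * t) ≤ t * x := mul_le_mul_of_nonneg_left hcon.le ht
  nlinarith [mul_nonneg ht ht]

/-- first order estimate -/
theorem exists_apriori_one {E : S.A →ₗ[ℝ] S.A} (hE : IsDO S 1 E) :
    ∃ C : ℝ, 0 ≤ C ∧ ∀ u : S.A, S.nS 1 u ≤ C * (‖(Lap S E u : H)‖ + ‖(u : H)‖) := by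
  obtain ⟨K, hK, hEK⟩ := hE.exists_nS_le 0
  set m : ℝ := (Fintype.card ι : ℝ) with hm
  have hm0 : 0 ≤ m := Nat.cast_nonneg _
  refine ⟨2 + m * (1 + K), by positivity, fun u => ?_⟩
  set a := ‖(Lap S E u : H)‖ with ha
  set b := ‖(u : H)‖ with hb
  have ha0 : 0 ≤ a := norm_nonneg _
  have hb0 : 0 ≤ b := norm_nonneg _
  set x := ∑ i, ‖(S.X i u : H)‖ with hx
  have hx0 : 0 ≤ x := Finset.sum_nonneg fun _ _ => norm_nonneg _
  have e1 : S.nS 1 u = b + x := rfl
  have h1 : ∑ i, ‖(S.X i u : H)‖ ^ 2 ≤ a * b + K * (b + x) * b := by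
    rw [energy_identity E u]
    have h2 : ⟪(Lap S E u : H), (u : H)⟫_ℝ ≤ a * b := real_inner_le_norm _ _
    have h3 : -⟪(E u : H), (u : H)⟫_ℝ ≤ K * (b + x) * b := by
      have h4 := neg_le_abs ⟪(E u : H), (u : H)⟫_ℝ
      refine h4.trans ((abs_real_inner_le_norm _ _).trans ?_)
      have h5 := hEK u
      rw [nS_zero_left] at h5
      exact mul_le_mul_of_nonneg_right h5 hb0
    linarith
  have h2 : x ^ 2 ≤ m * ∑ i, ‖(S.X i u : H)‖ ^ 2 := by
    have := sq_sum_le_card_mul_sum_sq (s := (Finset.univ : Finset ι))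
      (f := fun i => ‖(S.X i u : H)‖)
    simpa [hm] using this
  have h3 : x ^ 2 ≤ m * (a * b + K * (b + x) * b) :=
    h2.trans (mul_le_mul_of_nonneg_left h1 hm0)
  have h4 : x ≤ (1 + m * (1 + K)) * (a + b) := by
    refine le_of_sq_le (by positivity) (by positivity) (h3.trans ?_)
    have h5 : a * b + K * (b + x) * b ≤ (1 + K) * (a + b) ^ 2 + (1 + K) * (a + b) * x := by
      nlinarith [mul_nonneg ha0 ha0, mul_nonneg ha0 hb0, mul_nonneg hb0 hb0, mul_nonneg ha0 hx0,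
        mul_nonneg hb0 hx0, mul_nonneg hK (mul_nonneg ha0 ha0), mul_nonneg hK (mul_nonneg ha0 hb0),
        mul_nonneg hK (mul_nonneg ha0 hx0)]
    calc m * (a * b + K * (b + x) * b) ≤ m * ((1 + K) * (a + b) ^ 2 + (1 + K) * (a + b) * x) :=
          mul_le_mul_of_nonneg_left h5 hm0
      _ = _ := by ring
  rw [e1]
  linarith

/-- second order estimate -/
theorem exists_apriori_two {E : S.A →ₗ[ℝ] S.A} (hE : IsDO S 1 E) :
    ∃ C : ℝ, 0 ≤ C ∧ ∀ u : S.A, S.nS 2 u ≤ C * (‖(Lap S E u : H)‖ + ‖(u : H)‖) := by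
  classical
  obtain ⟨K, hK, hEK⟩ := hE.exists_nS_le 0
  obtain ⟨C1, hC1, h1⟩ := exists_apriori_one hE
  -- the commutators of the pure Laplacian
  have hE0 : IsDO S 1 (0 : S.A →ₗ[ℝ] S.A) := isDO_zero 1
  choose K' hK' hcomm using fun j => (isDO_Lap_comm hE0 j).exists_nS_le 0
  set M : ℝ := ∑ j, K' j with hM
  have hM0 : 0 ≤ M := Finset.sum_nonneg fun j _ => hK' j
  have hKM : ∀ j, K' j ≤ M := fun j =>
    Finset.single_le_sum (f := K') (fun _ _ => hK' _) (Finset.mem_univ j)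
  set m : ℝ := (Fintype.card ι : ℝ) with hm
  have hm0 : 0 ≤ m := Nat.cast_nonneg _
  -- the constant of the quadratic inequality
  set c : ℝ := m * m * ((1 + K * C1) ^ 2 + m * M * C1 * (1 + (1 + m) * C1)) with hc
  have hc0 : 0 ≤ c := by positivity
  refine ⟨(1 + m) * C1 + (1 + c), by positivity, fun u => ?_⟩
  set t := ‖(Lap S E u : H)‖ + ‖(u : H)‖ with ht
  have ht0 : 0 ≤ t := by positivity
  have hn1 : S.nS 1 u ≤ C1 * t := h1 u
  have hn10 := nS_nonneg S 1 u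
  set y := ∑ i, ∑ j, ‖(S.X i (S.X j u) : H)‖ with hy
  have hy0 : 0 ≤ y := Finset.sum_nonneg fun _ _ => Finset.sum_nonneg fun _ _ => norm_nonneg _
  have hXn : ∀ j, ‖(S.X j u : H)‖ ≤ S.nS 1 u := fun j => nS_X_le S 0 j u
  -- decomposition of `nS 2`
  have e2 : S.nS 2 u = S.nS 1 u + (∑ i, (‖(S.X i u : H)‖) + y) := by
    rw [hy, Finset.sum_comm]
    simp only [nS_succ, nS_zero_left, Finset.sum_add_distrib]
  have e2' : S.nS 2 u ≤ (1 + m) * (C1 * t) + y := by
    have h3 : ∑ i, ‖(S.X i u : H)‖ ≤ m * (C1 * t) := by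
      calc _ ≤ ∑ _i : ι, (C1 * t) := Finset.sum_le_sum fun i _ => (hXn i).trans hn1
        _ = m * (C1 * t) := by simp [hm]
    rw [e2]; nlinarith
  -- the identity
  have hid : ∑ j, ∑ i, ‖(S.X i (S.X j u) : H)‖ ^ 2 =
      ‖((∑ i, S.X i (S.X i u) : S.A) : H)‖ ^ 2 +
        ∑ j, ⟪((Lap S 0 ∘ₗ S.X j - S.X j ∘ₗ Lap S 0) u : H), (S.X j u : H)⟫_ℝ := by
    have h4 : ∀ j, ∑ i, ‖(S.X i (S.X j u) : H)‖ ^ 2 =
        ⟪((Lap S 0 ∘ₗ S.X j - S.X j ∘ₗ Lap S 0) u : H), (S.X j u : H)⟫_ℝ +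
          ⟪((∑ i, S.X i (S.X i u) : S.A) : H), (S.X j (S.X j u) : H)⟫_ℝ := by
      intro j
      rw [energy_identity 0 (S.X j u)]
      have e3 : Lap S 0 (S.X j u) = (Lap S 0 ∘ₗ S.X j - S.X j ∘ₗ Lap S 0) u +
          S.X j (Lap S 0 u) := by
        simp
      rw [e3, Submodule.coe_add, inner_add_left, LinearMap.zero_apply, ZeroMemClass.coe_zero,
        inner_zero_left, sub_zero, S.skew]
      congr 1
      rw [Lap_apply, LinearMap.zero_apply, add_zero, Submodule.coe_neg, inner_neg_left, neg_neg]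
    simp only [h4]
    rw [Finset.sum_add_distrib, ← inner_sum, add_comm]
    congr 1
    rw [← real_inner_self_eq_norm_sq]
    congr 1
    rw [AddSubmonoidClass.coe_finsetSum]
  -- estimates
  have b1 : ‖((∑ i, S.X i (S.X i u) : S.A) : H)‖ ≤ (1 + K * C1) * t := by
    have e3 : (∑ i, S.X i (S.X i u) : S.A) = E u - Lap S E u := by
      rw [Lap_apply]; abel
    rw [e3, Submodule.coe_sub]
    have h5 := hEK u
    rw [nS_zero_left, zero_add] at h5
    calc ‖(E u : H) - Lap S E u‖ ≤ ‖(E u : H)‖ + ‖(Lap S E u : H)‖ := norm_sub_le _ _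
      _ ≤ K * (C1 * t) + t := by
          refine add_le_add (h5.trans (mul_le_mul_of_nonneg_left hn1 hK)) ?_
          rw [ht]; exact le_add_of_nonneg_right (norm_nonneg _)
      _ = _ := by ring
  have b2 : ∀ j, ⟪((Lap S 0 ∘ₗ S.X j - S.X j ∘ₗ Lap S 0) u : H), (S.X j u : H)⟫_ℝ ≤
      M * ((1 + m) * (C1 * t) + y) * (C1 * t) := by
    intro j
    have h5 := hcomm j u
    rw [nS_zero_left, zero_add] at h5
    refine (real_inner_le_norm _ _).trans ?_
    refine mul_le_mul (h5.trans ?_) ((hXn j).trans hn1) (norm_nonneg _) (by positivity)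
    exact mul_le_mul (hKM j) e2' (nS_nonneg S _ _) hM0
  have b3 : ∑ j, ∑ i, ‖(S.X i (S.X j u) : H)‖ ^ 2 ≤ ((1 + K * C1) * t) ^ 2 +
      m * (M * ((1 + m) * (C1 * t) + y) * (C1 * t)) := by
    rw [hid]
    refine add_le_add (pow_le_pow_left₀ (norm_nonneg _) b1 2) ?_
    calc _ ≤ ∑ _j : ι, M * ((1 + m) * (C1 * t) + y) * (C1 * t) :=
          Finset.sum_le_sum fun j _ => b2 j
      _ = _ := by simp [hm]
  have b4 : y ^ 2 ≤ m * m * ∑ j, ∑ i, ‖(S.X i (S.X j u) : H)‖ ^ 2 := by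
    have h5 : y = ∑ q : ι × ι, ‖(S.X q.1 (S.X q.2 u) : H)‖ := by
      rw [hy, Fintype.sum_prod_type]
    have h6 : ∑ j, ∑ i, ‖(S.X i (S.X j u) : H)‖ ^ 2 =
        ∑ q : ι × ι, ‖(S.X q.1 (S.X q.2 u) : H)‖ ^ 2 := by
      rw [Finset.sum_comm, Fintype.sum_prod_type]
    rw [h5, h6]
    have := sq_sum_le_card_mul_sum_sq (s := (Finset.univ : Finset (ι × ι)))
      (f := fun q => ‖(S.X q.1 (S.X q.2 u) : H)‖)
    simpa [hm] using this
  have b5 : y ≤ (1 + c) * t := by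
    refine le_of_sq_le ht0 hc0 ((b4.trans (mul_le_mul_of_nonneg_left b3 (by positivity))).trans ?_)
    have h7 : 0 ≤ m * m * ((1 + K * C1) ^ 2 + m * M * C1 * ((1 + m) * C1)) * (t * y) := by
      positivity
    have h8 : 0 ≤ m * m * (m * M * C1) * t ^ 2 := by positivity
    rw [hc]
    nlinarith
  calc S.nS 2 u ≤ (1 + m) * (C1 * t) + y := e2'
    _ ≤ (1 + m) * (C1 * t) + (1 + c) * t := by linarith
    _ = _ := by ring

/-- **A priori estimates** of all orders for `L = - ∑ X_i X_i + E`, `E` of order one. -/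
theorem exists_apriori {E : S.A →ₗ[ℝ] S.A} (hE : IsDO S 1 E) (s : ℕ) :
    ∃ C : ℝ, 0 ≤ C ∧ ∀ u : S.A, S.nS (s + 2) u ≤ C * (S.nS s (Lap S E u) + ‖(u : H)‖) := by
  induction s with
  | zero =>
    obtain ⟨C, hC, h⟩ := exists_apriori_two hE
    exact ⟨C, hC, fun u => h u⟩
  | succ s ih =>
    obtain ⟨C, hC, h⟩ := ih
    choose K hK hcomm using fun j => (isDO_Lap_comm hE j).exists_nS_le s
    set M : ℝ := ∑ j, K j with hM
    have hM0 : 0 ≤ M := Finset.sum_nonneg fun j _ => hK j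
    have hKM : ∀ j, K j ≤ M := fun j =>
      Finset.single_le_sum (f := K) (fun _ _ => hK _) (Finset.mem_univ j)
    set m : ℝ := (Fintype.card ι : ℝ) with hm
    have hm0 : 0 ≤ m := Nat.cast_nonneg _
    refine ⟨C + m * (C * (1 + (M + 1) * C)), by positivity, fun u => ?_⟩
    set t := S.nS (s + 1) (Lap S E u) + ‖(u : H)‖ with ht
    have hn0 := nS_nonneg S (s + 1) (Lap S E u)
    have ht0 : 0 ≤ t := by positivity
    have h1 : S.nS (s + 2) u ≤ C * t := (h u).trans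
      (mul_le_mul_of_nonneg_left (by rw [ht]; linarith [nS_le_succ S s (Lap S E u)]) hC)
    have h2 : ∀ j, S.nS (s + 2) (S.X j u) ≤ C * (1 + (M + 1) * C) * t := by
      intro j
      have e : Lap S E (S.X j u) = (Lap S E ∘ₗ S.X j - S.X j ∘ₗ Lap S E) u +
          S.X j (Lap S E u) := by simp
      have h3 : S.nS s (Lap S E (S.X j u)) ≤ M * (C * t) + t := by
        rw [e]
        refine (nS_add S s _ _).trans (add_le_add ?_ ?_)
        · refine (hcomm j u).trans (mul_le_mul (hKM j) h1 (nS_nonneg S _ _) hM0)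
        · exact (nS_X_le S s j _).trans (by rw [ht]; exact le_add_of_nonneg_right (norm_nonneg _))
      have h4 : ‖(S.X j u : H)‖ ≤ C * t :=
        ((nS_X_le S 0 j u).trans (nS_mono S (by omega) u)).trans h1
      calc S.nS (s + 2) (S.X j u) ≤ C * (S.nS s (Lap S E (S.X j u)) + ‖(S.X j u : H)‖) := h _
        _ ≤ C * ((M * (C * t) + t) + C * t) :=
            mul_le_mul_of_nonneg_left (add_le_add h3 h4) hC
        _ = _ := by ring
    calc S.nS (s + 1 + 2) u = S.nS (s + 2) u + ∑ j, S.nS (s + 2) (S.X j u) := rfl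
      _ ≤ C * t + ∑ _j : ι, C * (1 + (M + 1) * C) * t :=
          add_le_add h1 (Finset.sum_le_sum fun j _ => h2 j)
      _ = _ := by simp [hm]; ring

/-- A priori estimates for `L = - ∑ X_i X_i + B`, `B` a smooth multiplier. -/
theorem exists_apriori_mul {B : H →L[ℝ] H} (hB : B ∈ S.T) (s : ℕ) :
    ∃ C : ℝ, 0 ≤ C ∧ ∀ u : S.A,
      S.nS (s + 2) u ≤ C * (S.nS s (Lap S (TA S B hB) u) + ‖(u : H)‖) :=
  exists_apriori (IsDO.mul B hB).succ s

/-- Regularity of eigenvectors, quantitatively. -/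
theorem exists_apriori_eig {E : S.A →ₗ[ℝ] S.A} (hE : IsDO S 1 E) (s : ℕ) (l : ℝ) :
    ∃ C : ℝ, 0 ≤ C ∧ ∀ u : S.A, Lap S E u = l • u → S.nS s u ≤ C * ‖(u : H)‖ := by
  have key : ∀ r : ℕ, ∃ C : ℝ, 0 ≤ C ∧ ∀ u : S.A, Lap S E u = l • u →
      S.nS (2 * r) u ≤ C * ‖(u : H)‖ := by
    intro r
    induction r with
    | zero => exact ⟨1, zero_le_one, fun u _ => by simp [nS_zero_left]⟩
    | succ r ih =>
      obtain ⟨C, hC, h⟩ := ih
      obtain ⟨K, hK, hL⟩ := exists_apriori hE (2 * r)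
      refine ⟨K * (|l| * C + 1), by positivity, fun u hu => ?_⟩
      have h1 := hL u
      rw [hu, nS_smul] at h1
      refine h1.trans ?_
      rw [mul_assoc]
      refine mul_le_mul_of_nonneg_left ?_ hK
      have := mul_le_mul_of_nonneg_left (h u hu) (abs_nonneg l)
      linarith
  obtain ⟨C, hC, h⟩ := key s
  exact ⟨C, hC, fun u hu => (nS_mono S (by omega) u).trans (h u hu)⟩

end Vale.Agent.P207.H734
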