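import Vale.Agent.P207.H442.Int
import Vale.Agent.P207.Kat.Q

/-!
# P207, row (R5): the gauge

`C` is the frame calculus of an Einstein metric with `Ric = -c₀`, `c₀ > 0`. For every 2-tensor `k`
there is exactly one vector field `w` such that `k + L_w g₀` is divergence free, with the estimate
`|w|_{s+1} ≤ C |k|_s`. Input: the inverses of `c₀ - cas` on functions of the base and of
`2 c₀ - cas` on vector fields.
-/

noncomputable section

namespace Vale.Agent.P207.H734

open Vale.Agent.P207.H442 Vale.Agent.P207.H442.FrCalc Finset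

variable {n : ℕ} {A : Type*} [CommRing A] [Algebra ℝ A] {C : FrCalc n A} {c₀ : ℝ}

/-- `Ric = -c₀` -/
def Ein (C : FrCalc n A) (c₀ : ℝ) : Prop :=
  ∀ i j, C.Ric i j = if i = j then -(c₀ • (1 : A)) else 0

theorem Ein.sum_Ric (hE : Ein C c₀) (w : Fin n → A) (j : Fin n) :
    ∑ a, C.Ric a j * w a = -(c₀ • w j) := by
  have h1 : ∀ a, C.Ric a j * w a = if a = j then -(c₀ • w a) else 0 := by
    intro a
    rw [hE a j]
    split_ifs
    · rw [neg_mul, smul_mul_assoc, one_mul]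
    · rw [zero_mul]
  simp only [h1, Finset.sum_ite_eq', Finset.mem_univ, if_true]

/-- a positive definite integral -/
structure IPos (I : A →ₗ[ℝ] ℝ) : Prop where
  nonneg : ∀ f, 0 ≤ I (f * f)
  eq_zero : ∀ f, I (f * f) = 0 → f = 0

variable {I : A →ₗ[ℝ] ℝ}

/-- energy identity on functions of the base -/
theorem energy_zero (hI : C.IsInt I) {f : A} (hf : C.T0 f) (c : ℝ) :
    I ((c • f - C.cas f) * f) = c * I (f * f) + ∑ i, I (C.H i f * C.H i f) := by
  rw [hf.cas, sub_mul, map_sub, smul_mul_assoc, map_smul, smul_eq_mul, mul_comm (C.lap f) f,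
    hI.lap]
  ring

/-- `-lap` on a component -/
theorem energy_lap (hI : C.IsInt I) (f : A) :
    I (C.lap f * f) = -∑ i, I (C.H i f * C.H i f) := by
  rw [mul_comm, hI.lap]

theorem cas_T1 (hE : Ein C c₀) {w : Fin n → A} (hw : C.T1 w) (j : Fin n) :
    C.cas (w j) = C.lap (w j) + c₀ • w j := by
  rw [hw.cas, hE.sum_Ric, sub_neg_eq_add]

/-- energy identity on vector fields -/
theorem energy_one (hI : C.IsInt I) (hE : Ein C c₀) {w : Fin n → A} (hw : C.T1 w) (c : ℝ) :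
    ∑ j, I ((c • w j - C.cas (w j)) * w j) =
      (c - c₀) * ∑ j, I (w j * w j) + ∑ j, ∑ i, I (C.H i (w j) * C.H i (w j)) := by
  rw [Finset.mul_sum, ← Finset.sum_add_distrib]
  refine Finset.sum_congr rfl fun j _ => ?_
  rw [cas_T1 hE hw, sub_mul, add_mul, map_sub, map_add, smul_mul_assoc, smul_mul_assoc, map_smul,
    map_smul, smul_eq_mul, smul_eq_mul, energy_lap hI]
  ring

/-- coercivity of `c - cas` on functions of the base -/
theorem coer_zero (hI : C.IsInt I) (hp : IPos I) {f : A} (hf : C.T0 f) (c : ℝ) :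
    c * I (f * f) ≤ I ((c • f - C.cas f) * f) := by
  rw [energy_zero hI hf]
  exact le_add_of_nonneg_right (Finset.sum_nonneg fun i _ => hp.nonneg _)

/-- coercivity of `c - cas` on vector fields -/
theorem coer_one (hI : C.IsInt I) (hp : IPos I) (hE : Ein C c₀) {w : Fin n → A} (hw : C.T1 w)
    (c : ℝ) : (c - c₀) * ∑ j, I (w j * w j) ≤ ∑ j, I ((c • w j - C.cas (w j)) * w j) := by
  rw [energy_one hI hE hw]
  exact le_add_of_nonneg_right
    (Finset.sum_nonneg fun j _ => Finset.sum_nonneg fun i _ => hp.nonneg _)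

/-- the divergence of a vector field is a function of the base -/
theorem T0_div {w : Fin n → A} (hw : C.T1 w) : C.T0 (∑ i, C.H i (w i)) := hw.nabla.tr

theorem divf_T1 {k : Fin n → Fin n → A} (hk : C.T2 k) : C.T1 (Kat.divf C k) := hk.nabla.tr12

/-- the gauge operator -/
theorem divf_Lf (hE : Ein C c₀) {w : Fin n → A} (hw : C.T1 w) (j : Fin n) :
    Kat.divf C (Kat.Lf C w) j =
      C.cas (w j) + C.H j (∑ i, C.H i (w i)) - (2 * c₀) • w j := by
  unfold Kat.divf Kat.Lf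
  rw [hw.gauge, hE.sum_Ric, smul_neg, smul_smul, sub_eq_add_neg]

theorem divf_add (k l : Fin n → Fin n → A) (j : Fin n) :
    Kat.divf C (fun i j => k i j + l i j) j = Kat.divf C k j + Kat.divf C l j := by
  unfold Kat.divf
  simp only [map_add, Finset.sum_add_distrib]

/-- the energy of the gauge operator -/
theorem energy_gauge (hI : C.IsInt I) (hE : Ein C c₀) {w : Fin n → A} (hw : C.T1 w) :
    -∑ j, I (Kat.divf C (Kat.Lf C w) j * w j) =
      c₀ * ∑ j, I (w j * w j) + ∑ j, ∑ i, I (C.H i (w j) * C.H i (w j)) +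
        I ((∑ i, C.H i (w i)) * ∑ i, C.H i (w i)) := by
  have h1 : ∀ j, I (Kat.divf C (Kat.Lf C w) j * w j) =
      -I (((2 * c₀) • w j - C.cas (w j)) * w j) -
        I ((∑ i, C.H i (w i)) * C.H j (w j)) := by
    intro j
    rw [divf_Lf hE hw]
    have e : (C.cas (w j) + C.H j (∑ i, C.H i (w i)) - (2 * c₀) • w j) * w j =
        -(((2 * c₀) • w j - C.cas (w j)) * w j) + C.H j (∑ i, C.H i (w i)) * w j := by ring
    rw [e, map_add, map_neg, hI.H_mul]
    ring
  have h2 : ∑ j, I ((∑ i, C.H i (w i)) * C.H j (w j)) =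
      I ((∑ i, C.H i (w i)) * ∑ i, C.H i (w i)) := by
    rw [Finset.mul_sum, map_sum]
  simp only [h1]
  rw [Finset.sum_sub_distrib, Finset.sum_neg_distrib, energy_one hI hE hw, h2]
  ring

/-- **uniqueness of the gauge** -/
theorem gauge_unique (hI : C.IsInt I) (hp : IPos I) (hE : Ein C c₀) (hc : 0 < c₀)
    {w : Fin n → A} (hw : C.T1 w) (h : ∀ j, Kat.divf C (Kat.Lf C w) j = 0) (j : Fin n) :
    w j = 0 := by
  have h1 := energy_gauge hI hE hw
  simp only [h, zero_mul, map_zero, Finset.sum_const_zero, neg_zero] at h1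
  have h2 : 0 ≤ ∑ j, ∑ i, I (C.H i (w j) * C.H i (w j)) :=
    Finset.sum_nonneg fun j _ => Finset.sum_nonneg fun i _ => hp.nonneg _
  have h3 := hp.nonneg (∑ i, C.H i (w i))
  have h4 : 0 ≤ ∑ j, I (w j * w j) := Finset.sum_nonneg fun j _ => hp.nonneg _
  have h5 : ∑ j, I (w j * w j) = 0 := by nlinarith
  exact hp.eq_zero _ ((Finset.sum_eq_zero_iff_of_nonneg fun j _ => hp.nonneg (w j)).1 h5 j
    (Finset.mem_univ j))

theorem Lf_sub (w u : Fin n → A) (i j : Fin n) :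
    Kat.Lf C (fun i => w i - u i) i j = Kat.Lf C w i j - Kat.Lf C u i j := by
  unfold Kat.Lf
  simp only [map_sub]
  ring

theorem divf_sub (k l : Fin n → Fin n → A) (j : Fin n) :
    Kat.divf C (fun i j => k i j - l i j) j = Kat.divf C k j - Kat.divf C l j := by
  unfold Kat.divf
  simp only [map_sub, Finset.sum_sub_distrib]

theorem gauge_unique' (hI : C.IsInt I) (hp : IPos I) (hE : Ein C c₀) (hc : 0 < c₀)
    {k : Fin n → Fin n → A} {w u : Fin n → A} (hw : C.T1 w) (hu : C.T1 u)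
    (h : ∀ j, Kat.divf C (fun i j => k i j + Kat.Lf C w i j) j = 0)
    (h' : ∀ j, Kat.divf C (fun i j => k i j + Kat.Lf C u i j) j = 0) : w = u := by
  funext j
  rw [← sub_eq_zero]
  refine gauge_unique (w := fun i => w i - u i) hI hp hE hc (hw.sub hu) (fun j => ?_) j
  have e : Kat.Lf C (fun i => w i - u i) = fun i j => Kat.Lf C w i j - Kat.Lf C u i j := by
    funext i j; exact Lf_sub w u i j
  rw [e, divf_sub]
  have h1 := h j
  have h2 := h' j
  rw [divf_add] at h1 h2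
  have h3 : Kat.divf C (fun i j => Kat.Lf C w i j) j = -Kat.divf C k j :=
    (neg_eq_of_add_eq_zero_right h1).symm
  have h4 : Kat.divf C (fun i j => Kat.Lf C u i j) j = -Kat.divf C k j :=
    (neg_eq_of_add_eq_zero_right h2).symm
  have h3' : Kat.divf C (Kat.Lf C w) j = -Kat.divf C k j := h3
  have h4' : Kat.divf C (Kat.Lf C u) j = -Kat.divf C k j := h4
  rw [h3', h4', sub_self]

/-- `div` commutes with the Casimir operator -/
theorem div_cas (hP : C.Par) (w : Fin n → A) :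
    ∑ i, C.H i (C.cas (w i)) = C.cas (∑ i, C.H i (w i)) := by
  rw [cas_sum]
  exact Finset.sum_congr rfl fun i _ => H_cas hP i (w i)

/-- **solution of the gauge equation** from the two inverses -/
theorem gauge_solve (hP : C.Par) (hI : C.IsInt I) (hp : IPos I) (hE : Ein C c₀) (hc : 0 < c₀)
    {k : Fin n → Fin n → A} {φ : A} {w : Fin n → A} (hφ : C.T0 φ) (hw : C.T1 w)
    (h0 : c₀ • φ - C.cas φ = (1 / 2 : ℝ) • ∑ j, C.H j (Kat.divf C k j))
    (h1 : ∀ j, (2 * c₀) • w j - C.cas (w j) = Kat.divf C k j + C.H j φ) (j : Fin n) :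
    Kat.divf C (fun i j => k i j + Kat.Lf C w i j) j = 0 := by
  -- the divergence of `w`
  have h2 : (2 * c₀) • (∑ i, C.H i (w i)) - C.cas (∑ i, C.H i (w i)) =
      (2 * c₀) • φ - C.cas φ := by
    have h3 : (2 * c₀) • (∑ i, C.H i (w i)) - C.cas (∑ i, C.H i (w i)) =
        ∑ i, C.H i ((2 * c₀) • w i - C.cas (w i)) := by
      simp only [map_sub, Finset.sum_sub_distrib, div_cas hP, Derivation.map_smul,
        Finset.smul_sum]
    rw [h3]
    simp only [h1, map_add, Finset.sum_add_distrib]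
    have h4 : ∑ i, C.H i (C.H i φ) = C.cas φ := hφ.cas.symm
    have h5 : ∑ i, C.H i (Kat.divf C k i) = (2 : ℝ) • (c₀ • φ - C.cas φ) := by
      rw [h0, smul_smul]; norm_num
    rw [h4, h5, smul_sub, smul_smul, two_smul ℝ (C.cas φ)]
    abel
  have h6 : ∑ i, C.H i (w i) = φ := by
    rw [← sub_eq_zero]
    have hd : C.T0 (∑ i, C.H i (w i) - φ) := by
      have := (T0_div hw).add (hφ.smul (-1))
      rwa [neg_one_smul, ← sub_eq_add_neg] at this
    have h7 : (2 * c₀) • (∑ i, C.H i (w i) - φ) - C.cas (∑ i, C.H i (w i) - φ) = 0 := by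
      rw [cas_sub, smul_sub, sub_sub_sub_comm, h2, sub_self]
    have h8 := coer_zero hI hp hd (2 * c₀)
    rw [h7, zero_mul, map_zero] at h8
    have h9 := hp.nonneg (∑ i, C.H i (w i) - φ)
    exact hp.eq_zero _ (by nlinarith)
  rw [divf_add]
  have h10 : Kat.divf C (fun i j => Kat.Lf C w i j) j =
      C.cas (w j) + C.H j (∑ i, C.H i (w i)) - (2 * c₀) • w j := divf_Lf hE hw j
  rw [h10, h6]
  have h11 := h1 j
  have h12 : Kat.divf C k j = (2 * c₀) • w j - C.cas (w j) - C.H j φ := by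
    rw [h11]; abel
  rw [h12]; abel

/-- the axioms of the scale of norms -/
structure NAx (C : FrCalc n A) (N : ℕ → A → ℝ) : Prop where
  nonneg : ∀ s u, 0 ≤ N s u
  add : ∀ s u v, N s (u + v) ≤ N s u + N s v
  smul : ∀ s (c : ℝ) u, N s (c • u) = |c| * N s u
  mono : ∀ s u, N s u ≤ N (s + 1) u
  hor : ∀ s i u, N s (C.H i u) ≤ N (s + 1) u

theorem NAx.zero {N : ℕ → A → ℝ} (hN : NAx C N) (s : ℕ) : N s 0 = 0 := by
  have h := hN.smul s 0 0
  simpa using h

theorem NAx.sum {N : ℕ → A → ℝ} (hN : NAx C N) {κ : Type*} (t : Finset κ) (s : ℕ) (u : κ → A) :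
    N s (∑ k ∈ t, u k) ≤ ∑ k ∈ t, N s (u k) := by
  classical
  induction t using Finset.induction_on with
  | empty => simp [hN.zero]
  | insert a t ha ih =>
    rw [Finset.sum_insert ha, Finset.sum_insert ha]
    exact (hN.add s _ _).trans (by linarith)

theorem NAx.mono_le {N : ℕ → A → ℝ} (hN : NAx C N) {s t : ℕ} (h : s ≤ t) (u : A) :
    N s u ≤ N t u := by
  induction h with
  | refl => exact le_rfl
  | step _ ih => exact ih.trans (hN.mono _ u)

/-- the inverse of `c₀ - cas` on functions of the base -/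
def Solv0 (C : FrCalc n A) (N : ℕ → A → ℝ) (c : ℝ) : Prop :=
  ∃ K : ℕ → ℝ, ∀ g, C.T0 g → ∃ φ, C.T0 φ ∧ c • φ - C.cas φ = g ∧
    ∀ s, N (s + 2) φ ≤ K s * N s g

/-- the inverse of `2 c₀ - cas` on vector fields -/
def Solv1 (C : FrCalc n A) (N : ℕ → A → ℝ) (c : ℝ) : Prop :=
  ∃ K : ℕ → ℝ, ∀ g, C.T1 g → ∃ w, C.T1 w ∧ (∀ j, c • w j - C.cas (w j) = g j) ∧
    ∀ s j, N (s + 2) (w j) ≤ K s * ∑ i, N s (g i)

/-- **the gauge**: existence, with `|w|_{s+1} ≤ C |k|_s` for `s ≥ 2` -/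
theorem exists_gauge (hP : C.Par) (hI : C.IsInt I) (hp : IPos I) (hE : Ein C c₀) (hc : 0 < c₀)
    {N : ℕ → A → ℝ} (hN : NAx C N) (hs0 : Solv0 C N c₀) (hs1 : Solv1 C N (2 * c₀)) :
    ∃ K : ℕ → ℝ, (∀ s, 0 ≤ K s) ∧ ∀ k : Fin n → Fin n → A, C.T2 k →
      ∃ w : Fin n → A, C.T1 w ∧
        (∀ j, Kat.divf C (fun i j => k i j + Kat.Lf C w i j) j = 0) ∧
        ∀ s j, N (s + 3) (w j) ≤ K s * ∑ i, ∑ j, N (s + 2) (k i j) := by
  obtain ⟨K0, h0⟩ := hs0
  obtain ⟨K1, h1⟩ := hs1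
  refine ⟨fun s => |K1 (s + 1)| * (1 + n * (|K0 s| * (1 / 2))), fun s => by positivity,
    fun k hk => ?_⟩
  have hd := divf_T1 hk
  have hd0 : C.T0 ((1 / 2 : ℝ) • ∑ j, C.H j (Kat.divf C k j)) := (T0_div hd).smul _
  obtain ⟨φ, hφ, hφe, hφn⟩ := h0 _ hd0
  obtain ⟨w, hw, hwe, hwn⟩ := h1 _ (hd.add hφ.nabla)
  refine ⟨w, hw, gauge_solve hP hI hp hE hc hφ hw hφe hwe, fun s j => ?_⟩
  set B : ℝ := ∑ i, ∑ j, N (s + 2) (k i j) with hB
  have hB0 : 0 ≤ B := Finset.sum_nonneg fun i _ => Finset.sum_nonneg fun j _ => hN.nonneg _ _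
  -- the divergence
  have b1 : ∀ t ≤ s + 1, ∑ j, N t (Kat.divf C k j) ≤ B := by
    intro t ht
    rw [hB, Finset.sum_comm]
    refine Finset.sum_le_sum fun j _ => ?_
    refine (hN.sum _ _ _).trans (Finset.sum_le_sum fun i _ => ?_)
    exact (hN.hor t i _).trans (hN.mono_le (by omega) _)
  have b2 : N s ((1 / 2 : ℝ) • ∑ j, C.H j (Kat.divf C k j)) ≤ (1 / 2) * B := by
    rw [hN.smul, abs_of_nonneg (by norm_num : (0 : ℝ) ≤ 1 / 2)]
    refine mul_le_mul_of_nonneg_left ?_ (by norm_num)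
    refine (hN.sum _ _ _).trans (le_trans (Finset.sum_le_sum fun j _ => hN.hor s j _) ?_)
    exact b1 (s + 1) le_rfl
  have b3 : N (s + 2) φ ≤ |K0 s| * ((1 / 2) * B) := by
    refine (hφn s).trans ?_
    calc K0 s * N s ((1 / 2 : ℝ) • ∑ j, C.H j (Kat.divf C k j))
        ≤ |K0 s| * N s ((1 / 2 : ℝ) • ∑ j, C.H j (Kat.divf C k j)) :=
          mul_le_mul_of_nonneg_right (le_abs_self _) (hN.nonneg _ _)
      _ ≤ _ := mul_le_mul_of_nonneg_left b2 (abs_nonneg _)
  have b4 : ∑ i, N (s + 1) (Kat.divf C k i + C.H i φ) ≤ B + n * (|K0 s| * ((1 / 2) * B)) := by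
    calc ∑ i, N (s + 1) (Kat.divf C k i + C.H i φ)
        ≤ ∑ i, (N (s + 1) (Kat.divf C k i) + N (s + 1) (C.H i φ)) :=
          Finset.sum_le_sum fun i _ => hN.add _ _ _
      _ = ∑ i, N (s + 1) (Kat.divf C k i) + ∑ i, N (s + 1) (C.H i φ) :=
          Finset.sum_add_distrib
      _ ≤ B + ∑ _i : Fin n, |K0 s| * ((1 / 2) * B) := by
          refine add_le_add (b1 _ le_rfl) (Finset.sum_le_sum fun i _ => ?_)
          exact (hN.hor (s + 1) i φ).trans b3
      _ = _ := by simp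
  calc N (s + 3) (w j) ≤ K1 (s + 1) * ∑ i, N (s + 1) (Kat.divf C k i + C.H i φ) := hwn (s + 1) j
    _ ≤ |K1 (s + 1)| * ∑ i, N (s + 1) (Kat.divf C k i + C.H i φ) :=
        mul_le_mul_of_nonneg_right (le_abs_self _) (Finset.sum_nonneg fun i _ => hN.nonneg _ _)
    _ ≤ |K1 (s + 1)| * (B + n * (|K0 s| * ((1 / 2) * B))) :=
        mul_le_mul_of_nonneg_left b4 (abs_nonneg _)
    _ = _ := by ring

end Vale.Agent.P207.H734
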