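import Vale.Agent.P207.H734.Gauge
import Vale.Agent.P207.H379.Fam

/-!
# P207, row (R5): the gauge field of an equivariant tensor is equivariant
-/

noncomputable section

namespace Vale.Agent.P207.H734

open Vale.Agent.P207.H442 Vale.Agent.P207.H442.FrCalc Vale.Agent.P207.H379 Finset

variable {n : ℕ} {A : Type*} [CommRing A] [Algebra ℝ A] {C : FrCalc n A} (S : OnAct C)

theorem H_g1 (B : OnG n) (w : Fin n → A) (i j : Fin n) :
    C.H i (S.g1 B w j) = rt B.1.transpose (fun b => rt B.1.transpose
      (fun c => S.σ B (C.H c (w b))) i) j := by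
  unfold OnAct.g1
  rw [OnAct.rt_H]
  simp only [S.H_σ]

/-- the Lie derivative of the metric commutes with the group -/
theorem g2_Lf (B : OnG n) (w : Fin n → A) : S.g2 B (Kat.Lf C w) = Kat.Lf C (S.g1 B w) := by
  funext i j
  unfold Kat.Lf
  rw [H_g1, H_g1]
  unfold OnAct.g2
  simp only [map_add, rt_add]
  congr 1
  exact rt_rt_comm _ _ _ _ _

/-- the divergence commutes with the group -/
theorem g1_divf (B : OnG n) (k : Fin n → Fin n → A) :
    S.g1 B (Kat.divf C k) = Kat.divf C (S.g2 B k) := by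
  funext j
  unfold Kat.divf OnAct.g1 OnAct.g2
  simp only [OnAct.rt_H, S.H_σ]
  have hB : ∀ a b, ∑ i, B.1.transpose a i * B.1.transpose b i = if a = b then (1 : ℝ) else 0 :=
    fun a b => orth_left B a b
  -- contraction
  have h1 : ∀ F : Fin n → Fin n → Fin n → A,
      ∑ i, rt B.1.transpose (fun a => rt B.1.transpose (fun b =>
        rt B.1.transpose (fun c => F a b c) i) j) i =
      rt B.1.transpose (fun b => ∑ a, F a b a) j := by
    intro F
    have h2 : ∀ i, rt B.1.transpose (fun a => rt B.1.transpose (fun b =>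
        rt B.1.transpose (fun c => F a b c) i) j) i =
        rt B.1.transpose (fun b => rt B.1.transpose (fun a =>
        rt B.1.transpose (fun c => F a b c) i) i) j := fun i => rt_rt_comm _ _ _ _ _
    simp only [h2]
    rw [← rt_sum]
    congr 1
    funext b
    exact rt_contr (⟨B.1.transpose, (B⁻¹).2⟩ : OnG n) (fun a c => F a b c)
  rw [h1 fun a b c => S.σ B (C.H c (k a b))]
  simp only [map_sum]

/-- equivariance of the gauge field -/
theorem g1_gauge {I : A →ₗ[ℝ] ℝ} {c₀ : ℝ} (hI : C.IsInt I) (hp : IPos I) (hE : Ein C c₀)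
    (hc : 0 < c₀) {k : Fin n → Fin n → A} {w : Fin n → A} (hw : C.T1 w)
    (h : ∀ j, Kat.divf C (fun i j => k i j + Kat.Lf C w i j) j = 0) (B : OnG n)
    (hk : S.g2 B k = k) : S.g1 B w = w := by
  refine gauge_unique' hI hp hE hc (S.g1_T1 B hw) hw (fun j => ?_) h
  have e : (fun i j => k i j + Kat.Lf C (S.g1 B w) i j) =
      S.g2 B (fun i j => k i j + Kat.Lf C w i j) := by
    funext i j
    rw [OnAct.g2_add, ← g2_Lf, hk]
  rw [e, ← g1_divf]
  have h0 : Kat.divf C (fun i j => k i j + Kat.Lf C w i j) = fun _ => 0 := funext h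
  rw [h0]
  unfold OnAct.g1
  simp only [map_zero]
  exact rt_zero _ _

end Vale.Agent.P207.H734
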