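import Vale.Agent.P207.H734.Gauge
import Vale.Agent.P207.H395.Tens

/-!
# P207, row (R5): the inverses of `c - cas` on functions of the base and on vector fields
-/

open MeasureTheory

noncomputable section

set_option linter.unusedSectionVars false

namespace Vale.Agent.P207.H734

open Vale.Agent.P207.H442 Vale.Agent.P207.H442.FrCalc Vale.Agent.P207.H546 Vale.Agent.P207.H395

variable {n : ℕ}

/-- the trivial representation -/
def rep0 (n : ℕ) : Fin n → Fin n → Matrix Unit Unit ℝ := fun _ _ => 0

theorem isRep0 (n : ℕ) : IsRep (rep0 n) where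
  skew a b := by simp [rep0]
  brk a b k l := by simp [rep0, ac]

/-- the standard representation -/
def rep1 (n : ℕ) : Fin n → Fin n → Matrix (Fin n) (Fin n) ℝ := fun a b =>
  Matrix.single b a 1 - Matrix.single a b 1

theorem isRep1 (n : ℕ) : IsRep (rep1 n) where
  skew a b := by
    rw [rep1, Matrix.transpose_sub, Matrix.transpose_single, Matrix.transpose_single, neg_sub]
  brk a b k l := by
    have h : ∀ i j p q : Fin n, (Matrix.single i j 1 * Matrix.single p q 1 :
        Matrix (Fin n) (Fin n) ℝ) = if p = j then Matrix.single i q 1 else 0 := by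
      intro i j p q
      split_ifs with h1
      · subst h1
        rw [Matrix.single_mul_single_same, mul_one]
      · exact Matrix.single_mul_single_of_ne _ _ _ _ (fun h2 => h1 h2.symm) _
    have h' : ∀ i j p q : Fin n, (if i = j then (Matrix.single p q 1 : Matrix (Fin n) (Fin n) ℝ)
        else 0) = if j = i then Matrix.single p q 1 else 0 := by
      intro i j p q
      simp only [eq_comm]
    simp only [rep1, ac, sub_mul, mul_sub, h]
    rw [h' l a, h' k a, h' l b, h' k b]
    split_ifs <;> abel

variable {A : Type*} [CommRing A] [Algebra ℝ A] {C : FrCalc n A}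

theorem isFam0 {f : Unit → A} : C.IsFam (rep0 n) f ↔ C.T0 (f ()) := by
  unfold FrCalc.IsFam FrCalc.T0
  simp only [rep0, Matrix.zero_apply, zero_smul, Finset.sum_const_zero]
  exact ⟨fun h a b => h a b (), fun h a b _ => h a b⟩

theorem isFam1 {w : Fin n → A} : C.IsFam (rep1 n) w ↔ C.T1 w := by
  unfold FrCalc.IsFam FrCalc.T1
  have h : ∀ a b i, ∑ j, rep1 n a b i j • w j = ac a b w i := by
    intro a b i
    simp only [rep1, Matrix.sub_apply, Matrix.single_apply, sub_smul, ite_smul, one_smul,
      zero_smul, Finset.sum_sub_distrib, ac]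
    congr 1
    · split_ifs with h1 <;> simp [h1]
    · split_ifs with h1 <;> simp [h1]
  simp only [h]

section Solv

variable {N : Type} [TopologicalSpace N] [CompactSpace N] [MeasurableSpace N] [BorelSpace N]
  {μ : Measure N} [IsFiniteMeasure μ] [T2Space N] [μ.WeaklyRegular] [μ.IsOpenPosMeasure]
  {S : NSys (Fin n ⊕ (Fin n × Fin n)) N μ} {C : FrCalc n S.A} (T : TData S C)

/-- the inverse of `c - cas` on functions of the base -/
theorem solv0 {c : ℝ} (hc : (tens T (isRep0 n)).Big c) : Solv0 C S.hN c := by
  choose K hK0 hK using (tens T (isRep0 n)).exists_nm_res_le hc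
  refine ⟨K, fun g hg => ?_⟩
  have hg' : C.IsFam (rep0 n) (fun _ : Unit => g) := isFam0.2 hg
  set G : Fm C (rep0 n) := ⟨fun _ : Unit => g, hg'⟩ with hG
  set R := (tens T (isRep0 n)).res c hc G with hR
  refine ⟨(R : Unit → S.A) (), isFam0.1 R.2, ?_, fun s => ?_⟩
  · have h1 := tens_res T (isRep0 n) hc G ()
    exact h1
  · refine (hN_le_tens_nm T (isRep0 n) (s + 2) R ()).trans ((hK s G).trans ?_)
    refine mul_le_mul_of_nonneg_left ?_ (hK0 s)
    refine (tens_nm_le T (isRep0 n) s G).trans (le_of_eq ?_)
    simp [hG]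

/-- the inverse of `c - cas` on vector fields -/
theorem solv1 {c : ℝ} (hc : (tens T (isRep1 n)).Big c) : Solv1 C S.hN c := by
  choose K hK0 hK using (tens T (isRep1 n)).exists_nm_res_le hc
  refine ⟨K, fun g hg => ?_⟩
  have hg' : C.IsFam (rep1 n) g := isFam1.2 hg
  set G : Fm C (rep1 n) := ⟨g, hg'⟩ with hG
  set R := (tens T (isRep1 n)).res c hc G with hR
  refine ⟨(R : Fin n → S.A), isFam1.1 R.2, fun j => ?_, fun s j => ?_⟩
  · have h1 := tens_res T (isRep1 n) hc G j
    exact h1
  · refine (hN_le_tens_nm T (isRep1 n) (s + 2) R j).trans ((hK s G).trans ?_)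
    refine mul_le_mul_of_nonneg_left ?_ (hK0 s)
    exact tens_nm_le T (isRep1 n) s G

end Solv

end Vale.Agent.P207.H734
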