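import Vale.Agent.P207.H734.Rep01

/-!
# P207: 2-tensors and higher tensors as families

`rep2 n`: the representation on 2-tensors; `isFam2`: the families of this type are the tensors
`C.T2`.
-/

open MeasureTheory
open scoped Kronecker

noncomputable section

set_option linter.unusedSectionVars false

namespace Vale.Agent.P207.H734

open Vale.Agent.P207.H442 Vale.Agent.P207.H442.FrCalc Vale.Agent.P207.H546 Vale.Agent.P207.H395

variable {n : ℕ} {κ κ' : Type} [Fintype κ] [Fintype κ'] [DecidableEq κ] [DecidableEq κ']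

/-- the tensor product of two representations -/
def repT (ρ : Fin n → Fin n → Matrix κ κ ℝ) (ρ' : Fin n → Fin n → Matrix κ' κ' ℝ) :
    Fin n → Fin n → Matrix (κ × κ') (κ × κ') ℝ := fun a b => ρ a b ⊗ₖ 1 + 1 ⊗ₖ ρ' a b

theorem isRepT {ρ : Fin n → Fin n → Matrix κ κ ℝ} {ρ' : Fin n → Fin n → Matrix κ' κ' ℝ}
    (h : IsRep ρ) (h' : IsRep ρ') : IsRep (repT ρ ρ') where
  skew a b := by
    unfold repT
    rw [Matrix.transpose_add, ← Matrix.kroneckerMap_transpose, ← Matrix.kroneckerMap_transpose,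
      h.skew, h'.skew, Matrix.transpose_one, Matrix.transpose_one, neg_add]
    congr 1
    · ext i j; simp
    · ext i j; simp
  brk a b k l := by
    have e1 : ∀ (X Y : Matrix κ κ ℝ) (X' Y' : Matrix κ' κ' ℝ),
        (X ⊗ₖ (1 : Matrix κ' κ' ℝ) + (1 : Matrix κ κ ℝ) ⊗ₖ X') *
          (Y ⊗ₖ (1 : Matrix κ' κ' ℝ) + (1 : Matrix κ κ ℝ) ⊗ₖ Y') -
        (Y ⊗ₖ (1 : Matrix κ' κ' ℝ) + (1 : Matrix κ κ ℝ) ⊗ₖ Y') *
          (X ⊗ₖ (1 : Matrix κ' κ' ℝ) + (1 : Matrix κ κ ℝ) ⊗ₖ X') =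
        (X * Y - Y * X) ⊗ₖ (1 : Matrix κ' κ' ℝ) + (1 : Matrix κ κ ℝ) ⊗ₖ (X' * Y' - Y' * X') := by
      intro X Y X' Y'
      have h1 : ∀ (P Q : Matrix κ κ ℝ) (R : Matrix κ' κ' ℝ),
          (P - Q) ⊗ₖ R = P ⊗ₖ R - Q ⊗ₖ R := by
        intro P Q R; ext i j; simp [sub_mul]
      have h2 : ∀ (P : Matrix κ κ ℝ) (Q R : Matrix κ' κ' ℝ),
          P ⊗ₖ (Q - R) = P ⊗ₖ Q - P ⊗ₖ R := by
        intro P Q R; ext i j; simp [mul_sub]
      rw [h1, h2]
      simp only [add_mul, mul_add, ← Matrix.mul_kronecker_mul, one_mul, mul_one]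
      abel
    unfold repT
    rw [e1, h.brk, h'.brk]
    have h1 : ∀ (P Q : Matrix κ κ ℝ) (R : Matrix κ' κ' ℝ),
        (P + Q) ⊗ₖ R = P ⊗ₖ R + Q ⊗ₖ R := fun P Q R => Matrix.add_kronecker P Q R
    have h2 : ∀ (P : Matrix κ κ ℝ) (Q R : Matrix κ' κ' ℝ),
        P ⊗ₖ (Q + R) = P ⊗ₖ Q + P ⊗ₖ R := fun P Q R => Matrix.kronecker_add P Q R
    have h3 : ∀ (T : Fin n → Matrix κ κ ℝ) (i : Fin n),
        ac a b T i ⊗ₖ (1 : Matrix κ' κ' ℝ) = ac a b (fun j => T j ⊗ₖ (1 : Matrix κ' κ' ℝ)) i := by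
      intro T i
      unfold ac
      ext p q
      split_ifs <;> simp [sub_mul]
    have h4 : ∀ (T : Fin n → Matrix κ' κ' ℝ) (i : Fin n),
        (1 : Matrix κ κ ℝ) ⊗ₖ ac a b T i = ac a b (fun j => (1 : Matrix κ κ ℝ) ⊗ₖ T j) i := by
      intro T i
      unfold ac
      ext p q
      split_ifs <;> simp [mul_sub]
    have h5 : ∀ (T U : Fin n → Matrix (κ × κ') (κ × κ') ℝ) (i : Fin n),
        ac a b (fun j => T j + U j) i = ac a b T i + ac a b U i := by
      intro T U i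
      unfold ac
      ext p q
      split_ifs <;> simp
      all_goals ring
    rw [h1, h2, h3, h3, h4, h4, h5, h5]
    exact add_add_add_comm _ _ _ _

/-- the representation on 2-tensors -/
def rep2 (n : ℕ) : Fin n → Fin n → Matrix (Fin n × Fin n) (Fin n × Fin n) ℝ :=
  repT (rep1 n) (rep1 n)

theorem isRep2 (n : ℕ) : IsRep (rep2 n) := isRepT (isRep1 n) (isRep1 n)

variable {A : Type*} [CommRing A] [Algebra ℝ A] {C : FrCalc n A}

theorem sum_rep1 (a b i : Fin n) (w : Fin n → A) : ∑ j, rep1 n a b i j • w j = ac a b w i := by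
  simp only [rep1, Matrix.sub_apply, Matrix.single_apply, sub_smul, ite_smul, one_smul,
    zero_smul, Finset.sum_sub_distrib, ac]
  congr 1
  · split_ifs with h1 <;> simp [h1]
  · split_ifs with h1 <;> simp [h1]

theorem sum_repT (ρ : Fin n → Fin n → Matrix κ κ ℝ) (ρ' : Fin n → Fin n → Matrix κ' κ' ℝ)
    (a b : Fin n) (α : κ) (α' : κ') (k : κ → κ' → A) :
    ∑ p : κ × κ', repT ρ ρ' a b (α, α') p • k p.1 p.2 =
      ∑ β, ρ a b α β • k β α' + ∑ β', ρ' a b α' β' • k α β' := by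
  unfold repT
  simp only [Matrix.add_apply, add_smul, Finset.sum_add_distrib]
  congr 1
  · rw [Fintype.sum_prod_type]
    refine Finset.sum_congr rfl fun β _ => ?_
    simp [Matrix.one_apply]
  · rw [Fintype.sum_prod_type_right]
    refine Finset.sum_congr rfl fun β _ => ?_
    simp [Matrix.one_apply]

theorem isFam2 {k : Fin n → Fin n → A} :
    C.IsFam (rep2 n) (fun p : Fin n × Fin n => k p.1 p.2) ↔ C.T2 k := by
  unfold FrCalc.IsFam FrCalc.T2
  have h : ∀ a b i j, ∑ p : Fin n × Fin n, rep2 n a b (i, j) p • k p.1 p.2 =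
      ac a b (fun i => k i j) i + ac a b (fun j => k i j) j := by
    intro a b i j
    unfold rep2
    rw [sum_repT, sum_rep1 a b i (fun β => k β j), sum_rep1 a b j (fun β => k i β)]
  constructor
  · intro h1 a b i j
    exact (h1 a b (i, j)).trans (h a b i j)
  · rintro h1 a b ⟨i, j⟩
    exact (h1 a b i j).trans (h a b i j).symm

/-- version with one family index -/
theorem isFam2' {f : Fin n × Fin n → A} :
    C.IsFam (rep2 n) f ↔ C.T2 (fun i j => f (i, j)) :=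
  isFam2 (C := C) (k := fun i j => f (i, j))

end Vale.Agent.P207.H734
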