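import Mathlib

/-!
# P207, all dimensions, strict quarter pinching: the type lemma, local form (row TY)

`ty_local`, `ty_linear` : let `f` vanish on `Z ∋ θ₀`, `Df (θ) (L θ p) = 0` for `θ ∈ Z`, and let the
kernel of `Df (θ₀)` be the range of `L θ₀`. Then for `θ ∈ Z` near `θ₀` every small `w` with
`f (θ + w) = 0` is `L θ p + O(|w|²)`, `p = O(|w|)`.
-/

open Metric Set Filter Topology
open scoped ContDiff

namespace Vale.Agent.P207.H734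

variable {V P R : Type*} [NormedAddCommGroup V] [NormedSpace ℝ V] [FiniteDimensional ℝ V]
  [NormedAddCommGroup P] [NormedSpace ℝ P]
  [NormedAddCommGroup R] [NormedSpace ℝ R] [FiniteDimensional ℝ R]

/-- the uniform splitting near `θ₀` -/
theorem ty_split {L : V →L[ℝ] P →L[ℝ] V} {f : V → R} {θ₀ : V} {Z : Set V}
    (hf : ContDiff ℝ 2 f) (hL : ∀ θ ∈ Z, ∀ p, fderiv ℝ f θ (L θ p) = 0)
    (hker : ∀ v, fderiv ℝ f θ₀ v = 0 → ∃ p, L θ₀ p = v) :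
    ∃ η > 0, ∃ C, 0 ≤ C ∧ ∀ θ ∈ Z, ‖θ - θ₀‖ ≤ η → ∀ w,
      ∃ p, ‖p‖ ≤ C * ‖w‖ ∧ ‖w - L θ p‖ ≤ C * ‖fderiv ℝ f θ w‖ := by
  obtain ⟨Q, hQ⟩ := (LinearMap.range (L θ₀ : P →ₗ[ℝ] V)).exists_isCompl
  -- the surjection `P × Q → V`
  let Φ : P × Q →ₗ[ℝ] V := (L θ₀ : P →ₗ[ℝ] V).coprod Q.subtype
  have hΦ : LinearMap.range Φ = ⊤ := by
    rw [LinearMap.range_coprod, Submodule.range_subtype]
    exact hQ.sup_eq_top
  obtain ⟨ψ, hψ⟩ := Φ.exists_rightInverse_of_surjective hΦ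
  have hψ' : ∀ v, L θ₀ (ψ v).1 + ((ψ v).2 : V) = v := fun v => by
    have := LinearMap.congr_fun hψ v
    simpa [Φ] using this
  let ψc : V →L[ℝ] P × Q := LinearMap.toContinuousLinearMap ψ
  have hψc : ∀ v, ψc v = ψ v := fun v => rfl
  -- the injection of `Q`
  let D : Q →ₗ[ℝ] R := (fderiv ℝ f θ₀ : V →ₗ[ℝ] R).comp Q.subtype
  have hD : LinearMap.ker D = ⊥ := by
    rw [LinearMap.ker_eq_bot']
    intro q hq
    obtain ⟨p, hp⟩ := hker q hq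
    have h1 : (q : V) ∈ LinearMap.range (L θ₀ : P →ₗ[ℝ] V) := ⟨p, hp⟩
    have h2 : (q : V) ∈ (⊥ : Submodule ℝ V) := by
      rw [← hQ.inf_eq_bot]; exact ⟨h1, q.2⟩
    exact Subtype.ext (by simpa using h2)
  obtain ⟨g, hg⟩ := D.exists_leftInverse_of_injective hD
  let gc : R →L[ℝ] Q := LinearMap.toContinuousLinearMap g
  have hg' : ∀ q : Q, gc (fderiv ℝ f θ₀ q) = q := fun q => LinearMap.congr_fun hg q
  -- continuity of the derivative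
  have hcont : Continuous (fderiv ℝ f) := hf.continuous_fderiv (by norm_num)
  obtain ⟨η₁, hη₁, h1⟩ := Metric.continuousAt_iff.1 (hcont.continuousAt (x := θ₀))
    (1 / (2 * (‖gc‖ + 1))) (by positivity)
  set M : ℝ := ‖L‖ * ‖ψc‖ + 1 with hM
  have hM0 : 0 < M := by positivity
  set η : ℝ := min (η₁ / 2) (1 / (2 * M)) with hη
  have hη0 : 0 < η := by positivity
  refine ⟨η, hη0, max (2 * ‖ψc‖) (2 * ‖gc‖), by positivity, fun θ hθZ hθ w => ?_⟩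
  -- the perturbation of the identity
  let T : V →L[ℝ] V := (L (θ - θ₀)).comp ((ContinuousLinearMap.fst ℝ P Q).comp ψc)
  have hT : ‖T‖ ≤ 1 / 2 := by
    refine ContinuousLinearMap.opNorm_le_bound _ (by norm_num) fun v => ?_
    have h2 : ‖(ψc v).1‖ ≤ ‖ψc‖ * ‖v‖ := (norm_fst_le _).trans (ψc.le_opNorm v)
    have h3 : ‖θ - θ₀‖ ≤ 1 / (2 * M) := hθ.trans (min_le_right _ _)
    calc ‖T v‖ = ‖L (θ - θ₀) (ψc v).1‖ := rfl
      _ ≤ ‖L (θ - θ₀)‖ * ‖(ψc v).1‖ := ContinuousLinearMap.le_opNorm _ _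
      _ ≤ (‖L‖ * (1 / (2 * M))) * (‖ψc‖ * ‖v‖) := by
          gcongr
          exact (L.le_opNorm _).trans (by gcongr)
      _ = (‖L‖ * ‖ψc‖ / M) * (1 / 2) * ‖v‖ := by field_simp
      _ ≤ 1 * (1 / 2) * ‖v‖ := by
          gcongr
          rw [div_le_one hM0]
          linarith
      _ = _ := by ring
  have hunit : IsUnit (1 + T) := by
    have h4 : ‖(-T : V →L[ℝ] V)‖ < 1 := by rw [norm_neg]; linarith
    have h5 := isUnit_one_sub_of_norm_lt_one h4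
    rwa [sub_neg_eq_add] at h5
  obtain ⟨e, he⟩ := hunit
  set u : V := (e⁻¹ : (V →L[ℝ] V)ˣ).val w with hu
  have hu1 : u + T u = w := by
    have h6 : (e.val * (e⁻¹).val) w = w := by rw [Units.mul_inv]; rfl
    rw [he] at h6
    exact h6
  have hu2 : ‖u‖ ≤ 2 * ‖w‖ := by
    have h7 : ‖u‖ ≤ ‖w‖ + (1 / 2) * ‖u‖ := by
      calc ‖u‖ = ‖w - T u‖ := by rw [← hu1]; simp
        _ ≤ ‖w‖ + ‖T u‖ := norm_sub_le _ _
        _ ≤ _ := by
          gcongr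
          exact (T.le_opNorm u).trans (by gcongr)
    linarith
  have hw : L θ (ψc u).1 + ((ψc u).2 : V) = w := by
    have h8 := hψ' u
    rw [← hψc] at h8
    have h9 : L θ (ψc u).1 = L θ₀ (ψc u).1 + T u := by
      change _ = _ + L (θ - θ₀) (ψc u).1
      rw [map_sub]
      simp
    rw [h9]
    calc _ = (L θ₀ (ψc u).1 + ((ψc u).2 : V)) + T u := by abel
      _ = _ := by rw [h8, hu1]
  refine ⟨(ψc u).1, ?_, ?_⟩
  · calc ‖(ψc u).1‖ ≤ ‖ψc‖ * ‖u‖ := (norm_fst_le _).trans (ψc.le_opNorm u)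
      _ ≤ ‖ψc‖ * (2 * ‖w‖) := by gcongr
      _ = (2 * ‖ψc‖) * ‖w‖ := by ring
      _ ≤ _ := by gcongr; exact le_max_left _ _
  · set q : Q := (ψc u).2 with hq
    have h10 : w - L θ (ψc u).1 = (q : V) := by rw [← hw]; simp
    rw [h10]
    have h11 : fderiv ℝ f θ w = fderiv ℝ f θ (q : V) := by
      rw [← hw, map_add, hL θ hθZ, zero_add]
    rw [h11]
    have h12 : ‖fderiv ℝ f θ - fderiv ℝ f θ₀‖ ≤ 1 / (2 * (‖gc‖ + 1)) := by
      have h13 : dist θ θ₀ < η₁ := by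
        rw [dist_eq_norm]
        have := hθ.trans (min_le_left _ _)
        linarith
      have := h1 h13
      rw [dist_eq_norm] at this
      exact this.le
    have h14 : ‖(q : V)‖ ≤ ‖gc‖ * ‖fderiv ℝ f θ₀ (q : V)‖ := by
      calc ‖(q : V)‖ = ‖gc (fderiv ℝ f θ₀ (q : V))‖ := by rw [hg']; rfl
        _ ≤ _ := gc.le_opNorm _
    have h15 : ‖fderiv ℝ f θ₀ (q : V)‖ ≤ ‖fderiv ℝ f θ (q : V)‖ +
        1 / (2 * (‖gc‖ + 1)) * ‖(q : V)‖ := by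
      calc ‖fderiv ℝ f θ₀ (q : V)‖ = ‖fderiv ℝ f θ (q : V) -
            (fderiv ℝ f θ - fderiv ℝ f θ₀) (q : V)‖ := by simp
        _ ≤ _ := norm_sub_le _ _
        _ ≤ _ := by
          gcongr
          exact (ContinuousLinearMap.le_opNorm _ _).trans (by gcongr)
    have h16 : ‖gc‖ * (1 / (2 * (‖gc‖ + 1)) * ‖(q : V)‖) ≤ 1 / 2 * ‖(q : V)‖ := by
      have h17 : ‖gc‖ * (1 / (2 * (‖gc‖ + 1))) ≤ 1 / 2 := by
        rw [mul_one_div, div_le_div_iff₀ (by positivity) (by norm_num)]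
        nlinarith [norm_nonneg gc]
      calc _ = (‖gc‖ * (1 / (2 * (‖gc‖ + 1)))) * ‖(q : V)‖ := by ring
        _ ≤ _ := by gcongr
    have h18 : ‖(q : V)‖ ≤ 2 * ‖gc‖ * ‖fderiv ℝ f θ (q : V)‖ := by
      have h19 := h14.trans (mul_le_mul_of_nonneg_left h15 (norm_nonneg gc))
      rw [mul_add] at h19
      linarith
    exact h18.trans (by gcongr; exact le_max_right _ _)

/-- **the type lemma, local form** -/
theorem ty_local {L : V →L[ℝ] P →L[ℝ] V} {f : V → R} {θ₀ : V} {Z : Set V}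
    (hf : ContDiff ℝ 2 f) (hZ : ∀ θ ∈ Z, f θ = 0)
    (hL : ∀ θ ∈ Z, ∀ p, fderiv ℝ f θ (L θ p) = 0)
    (hker : ∀ v, fderiv ℝ f θ₀ v = 0 → ∃ p, L θ₀ p = v) :
    ∃ η > 0, ∃ C, 0 ≤ C ∧ ∀ θ ∈ Z, ‖θ - θ₀‖ ≤ η → ∀ w, ‖w‖ ≤ η → f (θ + w) = 0 →
      ∃ p, ‖p‖ ≤ C * ‖w‖ ∧ ‖w - L θ p‖ ≤ C * ‖w‖ ^ 2 := by
  obtain ⟨η, hη, C, hC, h⟩ := ty_split hf hL hker
  -- the derivative is Lipschitz near `θ₀`
  have hf1 : ContDiff ℝ 1 (fderiv ℝ f) := hf.fderiv_right (by norm_num)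
  obtain ⟨K, t, ht, hK⟩ := (hf1.contDiffAt (x := θ₀)).exists_lipschitzOnWith
  obtain ⟨r, hr, hrt⟩ := Metric.mem_nhds_iff.1 ht
  refine ⟨min η (r / 4), by positivity, max C (C * K), by positivity, fun θ hθ hθ0 w hw hfw => ?_⟩
  obtain ⟨p, hp1, hp2⟩ := h θ hθ (hθ0.trans (min_le_left _ _)) w
  refine ⟨p, hp1.trans (by gcongr; exact le_max_left _ _), hp2.trans ?_⟩
  have hr4 : ‖θ - θ₀‖ ≤ r / 4 := hθ0.trans (min_le_right _ _)
  have hw4 : ‖w‖ ≤ r / 4 := hw.trans (min_le_right _ _)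
  have hθt : θ ∈ t := hrt (by rw [mem_ball, dist_eq_norm]; linarith)
  have hsub : ∀ z ∈ closedBall θ ‖w‖, z ∈ t := fun z hz => hrt (by
    rw [mem_ball]
    have h1 : dist z θ ≤ ‖w‖ := hz
    have h2 : dist θ θ₀ ≤ r / 4 := by rw [dist_eq_norm]; exact hr4
    linarith [dist_triangle z θ θ₀])
  have h3 := (convex_closedBall θ ‖w‖).norm_image_sub_le_of_norm_hasFDerivWithin_le'
    (f := f) (f' := fderiv ℝ f) (φ := fderiv ℝ f θ) (C := K * ‖w‖)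
    (fun z _ => ((hf.differentiable (by norm_num)) z).hasFDerivAt.hasFDerivWithinAt)
    (fun z hz => by
      have h4 := hK.norm_sub_le (hsub z hz) hθt
      refine h4.trans ?_
      gcongr
      rw [← dist_eq_norm]
      exact hz)
    (mem_closedBall_self (norm_nonneg w)) (y := θ + w) (by simp)
  rw [hfw, hZ θ hθ, add_sub_cancel_left, sub_self, zero_sub, norm_neg] at h3
  calc C * ‖fderiv ℝ f θ w‖ ≤ C * (K * ‖w‖ * ‖w‖) := by gcongr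
    _ = (C * K) * ‖w‖ ^ 2 := by ring
    _ ≤ _ := by gcongr; exact le_max_right _ _

/-- **the type lemma, linear form** -/
theorem ty_linear {L : V →L[ℝ] P →L[ℝ] V} {f : V → R} {θ₀ : V} {Z : Set V}
    (hf : ContDiff ℝ 2 f) (hL : ∀ θ ∈ Z, ∀ p, fderiv ℝ f θ (L θ p) = 0)
    (hker : ∀ v, fderiv ℝ f θ₀ v = 0 → ∃ p, L θ₀ p = v) :
    ∃ η > 0, ∃ C, 0 ≤ C ∧ ∀ θ ∈ Z, ‖θ - θ₀‖ ≤ η → ∀ w, fderiv ℝ f θ w = 0 →
      ∃ p, ‖p‖ ≤ C * ‖w‖ ∧ w = L θ p := by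
  obtain ⟨η, hη, C, hC, h⟩ := ty_split hf hL hker
  refine ⟨η, hη, C, hC, fun θ hθ hθ0 w hw => ?_⟩
  obtain ⟨p, hp1, hp2⟩ := h θ hθ hθ0 w
  rw [hw, norm_zero, mul_zero] at hp2
  exact ⟨p, hp1, sub_eq_zero.1 (norm_le_zero_iff.1 hp2)⟩

end Vale.Agent.P207.H734
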