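import Vale.Agent.P207.H734.TyA

/-!
# P207, all dimensions, strict quarter pinching: the type lemma for subspaces (row TY)

`PRep E W` : a representation of `GL(E)` on `W`, smooth in `B = A⁻¹`.
`PRep.act B c θ` : the action of `GL(E) × GL_k` on `W^k`; `PRep.Z θ₀` : the closure of the orbit.
`PRep.Eq θ₀` : there are smooth equations of the orbit with the right kernel (LEMMA Z).
`PRep.Zt θ₀ F` : all bases of the subspace `F` are in `Z θ₀`.
`PRep.zt_orbit`, `PRep.zt_lim` : the subspaces of the orbit, and their limits, are of this type.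
`PRep.ty_quad` : `F'` is `δ`-close to `F` (both of the type, `F` near `F₀`), then
`F' = {s + Y.s + O(δ²)}`, `Y ∈ gl(E)`, `‖Y‖ ≤ C δ`.
`PRep.ty_lin` : the infinitesimal form.
-/

open Metric Set Filter Topology
open scoped ContDiff

namespace Vale.Agent.P207.H734

/-- a representation of `GL(E)` on `W`, in the variable `B = A⁻¹` -/
structure PRep (E W : Type*) [NormedAddCommGroup E] [NormedSpace ℝ E] [NormedAddCommGroup W]
    [NormedSpace ℝ W] where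
  rep : (E →L[ℝ] E) → (W →L[ℝ] W)
  d : (E →L[ℝ] E) →L[ℝ] (W →L[ℝ] W)
  one : rep 1 = 1
  mul : ∀ B C, rep (C * B) = (rep B).comp (rep C)
  cont : Continuous rep
  der : ∀ Y, HasDerivAt (fun t : ℝ => rep (1 + t • Y)) (d Y) 0

namespace PRep

variable {E W : Type*} [NormedAddCommGroup E] [NormedSpace ℝ E] [NormedAddCommGroup W]
  [NormedSpace ℝ W] (ρ : PRep E W) {k : ℕ}

theorem rep_inv {B C : E →L[ℝ] E} (h : B * C = 1) (s : W) : ρ.rep C (ρ.rep B s) = s := by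
  have h1 := ρ.mul C B
  rw [h, ρ.one] at h1
  exact (DFunLike.congr_fun h1 s).symm

/-- the action of `GL(E) × GL_k` on `W^k` -/
def act (B : E →L[ℝ] E) (c : Fin k → Fin k → ℝ) (θ : Fin k → W) : Fin k → W :=
  fun i => ∑ j, c i j • ρ.rep B (θ j)

theorem act_act (B B' : E →L[ℝ] E) (c c' : Fin k → Fin k → ℝ) (θ : Fin k → W) :
    ρ.act B' c' (ρ.act B c θ) = ρ.act (B * B') (fun i j => ∑ l, c' i l * c l j) θ := by
  ext1 i
  simp only [act, map_sum, map_smul, ρ.mul, Finset.smul_sum, smul_smul, Finset.sum_smul]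
  rw [Finset.sum_comm]
  rfl

/-- the set of pairs of invertible elements -/
def G (E : Type*) [NormedAddCommGroup E] [NormedSpace ℝ E] (k : ℕ) :
    Set ((E →L[ℝ] E) × (Fin k → Fin k → ℝ)) :=
  {g | IsUnit g.1 ∧ IsUnit (Matrix.of g.2)}

/-- the orbit -/
def orb (θ₀ : Fin k → W) : Set (Fin k → W) := {θ | ∃ g ∈ G E k, θ = ρ.act g.1 g.2 θ₀}

/-- the closure of the orbit -/
def Z (θ₀ : Fin k → W) : Set (Fin k → W) := closure (ρ.orb θ₀)

theorem act_cont (B : E →L[ℝ] E) (c : Fin k → Fin k → ℝ) : Continuous (ρ.act B c) := by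
  refine continuous_pi fun i => ?_
  unfold act
  fun_prop

theorem act_orb {θ₀ θ : Fin k → W} (h : θ ∈ ρ.orb θ₀) {B : E →L[ℝ] E} {c : Fin k → Fin k → ℝ}
    (hB : IsUnit B) (hc : IsUnit (Matrix.of c)) : ρ.act B c θ ∈ ρ.orb θ₀ := by
  obtain ⟨g, ⟨hg1, hg2⟩, rfl⟩ := h
  refine ⟨(g.1 * B, fun i j => ∑ l, c i l * g.2 l j), ⟨hg1.mul hB, ?_⟩, ρ.act_act _ _ _ _ _⟩
  have h1 : Matrix.of (fun i j => ∑ l, c i l * g.2 l j) = Matrix.of c * Matrix.of g.2 := by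
    ext i j; simp [Matrix.mul_apply]
  rw [h1]
  exact hc.mul hg2

theorem act_Z {θ₀ θ : Fin k → W} (h : θ ∈ ρ.Z θ₀) {B : E →L[ℝ] E} {c : Fin k → Fin k → ℝ}
    (hB : IsUnit B) (hc : IsUnit (Matrix.of c)) : ρ.act B c θ ∈ ρ.Z θ₀ := by
  have h1 : MapsTo (ρ.act B c) (ρ.orb θ₀) (ρ.orb θ₀) := fun θ h => ρ.act_orb h hB hc
  exact h1.closure (ρ.act_cont B c) h

/-- the tangent space of the orbit -/
noncomputable def L : (Fin k → W) →L[ℝ] ((E →L[ℝ] E) × (Fin k → Fin k → ℝ)) →L[ℝ] (Fin k → W) :=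
  LinearMap.mkContinuous₂ (LinearMap.mk₂ ℝ
    (fun (θ : Fin k → W) (p : (E →L[ℝ] E) × (Fin k → Fin k → ℝ)) => fun i =>
      ρ.d p.1 (θ i) + ∑ j, p.2 i j • θ j)
    (by intro θ θ' p; ext i; simp [smul_add, Finset.sum_add_distrib]; abel)
    (by intro a θ p; ext i; simp [Finset.smul_sum, smul_comm a])
    (by intro θ p p'; ext i; simp [add_smul, Finset.sum_add_distrib]; abel)
    (by intro a θ p; ext i; simp [Finset.smul_sum, smul_smul])) (‖ρ.d‖ + k) (by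
      intro θ p
      refine (pi_norm_le_iff_of_nonneg (by positivity)).2 fun i => ?_
      change ‖ρ.d p.1 (θ i) + ∑ j, p.2 i j • θ j‖ ≤ _
      have h1 : ‖ρ.d p.1 (θ i)‖ ≤ ‖ρ.d‖ * ‖θ‖ * ‖p‖ := by
        calc ‖ρ.d p.1 (θ i)‖ ≤ ‖ρ.d p.1‖ * ‖θ i‖ := ContinuousLinearMap.le_opNorm _ _
          _ ≤ (‖ρ.d‖ * ‖p‖) * ‖θ‖ := by
              gcongr
              · exact (ρ.d.le_opNorm _).trans (by gcongr; exact norm_fst_le p)
              · exact norm_le_pi_norm θ i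
          _ = _ := by ring
      have h2 : ‖∑ j, p.2 i j • θ j‖ ≤ k * ‖θ‖ * ‖p‖ := by
        calc ‖∑ j, p.2 i j • θ j‖ ≤ ∑ j : Fin k, ‖p.2 i j • θ j‖ := norm_sum_le _ _
          _ ≤ ∑ j : Fin k, ‖p‖ * ‖θ‖ := by
              refine Finset.sum_le_sum fun j _ => ?_
              rw [norm_smul]
              gcongr
              · exact (norm_le_pi_norm (p.2 i) j).trans
                  ((norm_le_pi_norm p.2 i).trans (norm_snd_le p))
              · exact norm_le_pi_norm θ j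
          _ = _ := by simp; ring
      calc _ ≤ _ := norm_add_le _ _
        _ ≤ ‖ρ.d‖ * ‖θ‖ * ‖p‖ + k * ‖θ‖ * ‖p‖ := add_le_add h1 h2
        _ = _ := by ring)

theorem L_apply (θ : Fin k → W) (Y : E →L[ℝ] E) (c : Fin k → Fin k → ℝ) (i : Fin k) :
    ρ.L θ (Y, c) i = ρ.d Y (θ i) + ∑ j, c i j • θ j := rfl

/-- **smooth equations of the orbit** (this is what LEMMA Z gives) -/
def Eqn (θ₀ : Fin k → W) : Prop := ∃ (M : ℕ) (f : (Fin k → W) → (Fin M → ℝ)), ContDiff ℝ 2 f ∧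
  (∀ g ∈ G E k, f (ρ.act g.1 g.2 θ₀) = 0) ∧
  ∀ v, fderiv ℝ f θ₀ v = 0 → ∃ p, ρ.L θ₀ p = v

/-- the curve of the group in the direction `p` -/
theorem hasDerivAt_act (θ : Fin k → W) (Y : E →L[ℝ] E) (c : Fin k → Fin k → ℝ) :
    HasDerivAt (fun t : ℝ => ρ.act (1 + t • Y) (fun i j => (if i = j then 1 else 0) + t * c i j) θ)
      (ρ.L θ (Y, c)) 0 := by
  refine hasDerivAt_pi.2 fun i => ?_
  rw [L_apply]
  have h1 : ∀ j, HasDerivAt (fun t : ℝ => ((if i = j then 1 else 0) + t * c i j) •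
      ρ.rep (1 + t • Y) (θ j)) (((if i = j then 1 else 0) : ℝ) • ρ.d Y (θ j) + c i j • θ j) 0 := by
    intro j
    have h2 : HasDerivAt (fun t : ℝ => (if i = j then 1 else 0) + t * c i j) (c i j) 0 := by
      have := ((hasDerivAt_id (0 : ℝ)).mul_const (c i j)).const_add (if i = j then (1 : ℝ) else 0)
      simpa using this
    have h3 : HasDerivAt (fun t : ℝ => ρ.rep (1 + t • Y) (θ j)) (ρ.d Y (θ j)) 0 := by
      have h4 := (ρ.der Y).clm_apply (hasDerivAt_const (0 : ℝ) (θ j))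
      simpa using h4
    have h5 := h2.fun_smul h3
    simpa [ρ.one] using h5
  have h6 := HasDerivAt.fun_sum (u := Finset.univ) fun j _ => h1 j
  have h7 : ∑ j, (((if i = j then 1 else 0) : ℝ) • ρ.d Y (θ j) + c i j • θ j) =
      ρ.d Y (θ i) + ∑ j, c i j • θ j := by
    rw [Finset.sum_add_distrib]
    congr 1
    simp
  rw [h7] at h6
  exact h6

variable [FiniteDimensional ℝ E] [FiniteDimensional ℝ W]

theorem eventually_unit (Y : E →L[ℝ] E) (c : Fin k → Fin k → ℝ) : ∀ᶠ t : ℝ in 𝓝 0,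
    IsUnit (1 + t • Y) ∧ IsUnit (Matrix.of (fun i j => (if i = j then 1 else 0) + t * c i j)) := by
  have h1 : ∀ᶠ t : ℝ in 𝓝 0, IsUnit (1 + t • Y) := by
    have h2 : Tendsto (fun t : ℝ => 1 + t • Y) (𝓝 0) (𝓝 1) := by
      have : Continuous fun t : ℝ => 1 + t • Y := by fun_prop
      simpa using this.tendsto 0
    have h3 : {A : E →L[ℝ] E | IsUnit A} ∈ 𝓝 (1 : E →L[ℝ] E) :=
      Units.isOpen.mem_nhds isUnit_one
    exact h2 h3
  have h4 : ∀ᶠ t : ℝ in 𝓝 0,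
      IsUnit (Matrix.of (fun i j => ((if i = j then 1 else 0) : ℝ) + t * c i j)) := by
    have h5 : Tendsto (fun t : ℝ => (Matrix.of (fun i j : Fin k =>
        ((if i = j then 1 else 0) : ℝ) + t * c i j)).det) (𝓝 0) (𝓝 1) := by
      have h6 : Continuous fun t : ℝ => (Matrix.of (fun i j : Fin k =>
          ((if i = j then 1 else 0) : ℝ) + t * c i j)).det := by
        refine Continuous.matrix_det ?_
        refine continuous_matrix fun i j => ?_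
        simp only [Matrix.of_apply]
        fun_prop
      have h7 := h6.tendsto 0
      have h8 : (Matrix.of (fun i j : Fin k => ((if i = j then 1 else 0) : ℝ) + 0 * c i j)) = 1 := by
        ext i j; simp [Matrix.one_apply]
      rw [h8, Matrix.det_one] at h7
      exact h7
    filter_upwards [h5.eventually (isOpen_ne.mem_nhds one_ne_zero)] with t ht
    rw [Matrix.isUnit_iff_isUnit_det]
    exact isUnit_iff_ne_zero.2 ht
  exact h1.and h4

omit [FiniteDimensional ℝ W] in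
/-- the basic data for `ty_split` -/
theorem eqn_data {θ₀ : Fin k → W} {M : ℕ} {f : (Fin k → W) → (Fin M → ℝ)} (hf : ContDiff ℝ 2 f)
    (h0 : ∀ g ∈ G E k, f (ρ.act g.1 g.2 θ₀) = 0) :
    (∀ θ ∈ ρ.Z θ₀, f θ = 0) ∧ ∀ θ ∈ ρ.Z θ₀, ∀ p, fderiv ℝ f θ (ρ.L θ p) = 0 := by
  have h1 : ∀ θ ∈ ρ.Z θ₀, f θ = 0 := by
    intro θ hθ
    have h2 : IsClosed {θ | f θ = 0} := isClosed_eq hf.continuous continuous_const
    have h3 : ρ.orb θ₀ ⊆ {θ | f θ = 0} := by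
      rintro θ ⟨g, hg, rfl⟩
      exact h0 g hg
    exact closure_minimal h3 h2 hθ
  refine ⟨h1, fun θ hθ p => ?_⟩
  obtain ⟨Y, c⟩ := p
  have h2 := ρ.hasDerivAt_act θ Y c
  have h3 : HasFDerivAt f (fderiv ℝ f θ)
      (ρ.act (1 + (0 : ℝ) • Y) (fun i j => (if i = j then 1 else 0) + (0 : ℝ) * c i j) θ) := by
    have h4 : ρ.act (1 + (0 : ℝ) • Y) (fun i j => (if i = j then 1 else 0) + (0 : ℝ) * c i j) θ =
        θ := by
      ext1 i
      simp [act, ρ.one]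
    rw [h4]
    exact ((hf.differentiable (by norm_num)) θ).hasFDerivAt
  have h5 := h3.comp_hasDerivAt (0 : ℝ) h2
  have h6 : (f ∘ fun t : ℝ => ρ.act (1 + t • Y)
      (fun i j => (if i = j then 1 else 0) + t * c i j) θ) =ᶠ[𝓝 0] fun _ => 0 := by
    filter_upwards [eventually_unit Y c] with t ht
    exact h1 _ (ρ.act_Z hθ ht.1 ht.2)
  exact h5.unique ((hasDerivAt_const (0 : ℝ) (0 : Fin M → ℝ)).congr_of_eventuallyEq h6)

/-! ### subspaces -/

/-- all bases of `F` are in the closure of the orbit -/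
def Zt (θ₀ : Fin k → W) (F : Submodule ℝ W) : Prop :=
  ∀ θ : Fin k → W, LinearIndependent ℝ θ → (∀ i, θ i ∈ F) → θ ∈ ρ.Z θ₀

omit [FiniteDimensional ℝ E] in
/-- coordinates with respect to a basis close to `θ₀` -/
theorem coord_bound {θ₀ : Fin k → W} (h : LinearIndependent ℝ θ₀) :
    ∃ η > 0, ∃ C, 0 ≤ C ∧ ∀ θ : Fin k → W, ‖θ - θ₀‖ ≤ η → LinearIndependent ℝ θ ∧
      ∀ a : Fin k → ℝ, ‖a‖ ≤ C * ‖∑ i, a i • θ i‖ := by
  -- the linear map `a ↦ ∑ a i θ₀ i`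
  let T : (Fin k → ℝ) →ₗ[ℝ] W := Fintype.linearCombination ℝ θ₀
  have hT : LinearMap.ker T = ⊥ := by
    rw [LinearMap.ker_eq_bot']
    intro a ha
    funext i
    exact Fintype.linearIndependent_iff.1 h a (by simpa [T, Fintype.linearCombination_apply] using ha) i
  obtain ⟨g, hg⟩ := T.exists_leftInverse_of_injective hT
  let gc : W →L[ℝ] (Fin k → ℝ) := LinearMap.toContinuousLinearMap g
  have hg' : ∀ a, gc (∑ i, a i • θ₀ i) = a := fun a => by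
    have := LinearMap.congr_fun hg a
    simpa [T, gc, Fintype.linearCombination_apply] using this
  set M : ℝ := 2 * (‖gc‖ * k + 1) with hM
  have hM0 : 0 < M := by positivity
  have key : ∀ θ : Fin k → W, ‖θ - θ₀‖ ≤ 1 / M → ∀ a : Fin k → ℝ,
      ‖a‖ ≤ 2 * ‖gc‖ * ‖∑ i, a i • θ i‖ := by
    intro θ hθ a
    have h1 : ‖a‖ ≤ ‖gc‖ * ‖∑ i, a i • θ₀ i‖ := by
      calc ‖a‖ = ‖gc (∑ i, a i • θ₀ i)‖ := by rw [hg']
        _ ≤ _ := gc.le_opNorm _
    have h2 : ‖∑ i, a i • (θ i - θ₀ i)‖ ≤ k * ‖a‖ * (1 / M) := by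
      calc _ ≤ ∑ i : Fin k, ‖a i • (θ i - θ₀ i)‖ := norm_sum_le _ _
        _ ≤ ∑ i : Fin k, ‖a‖ * (1 / M) := by
            refine Finset.sum_le_sum fun i _ => ?_
            rw [norm_smul]
            gcongr
            · exact norm_le_pi_norm a i
            · exact (norm_le_pi_norm (θ - θ₀) i).trans hθ
        _ = _ := by simp; ring
    have h3 : ‖∑ i, a i • θ₀ i‖ ≤ ‖∑ i, a i • θ i‖ + k * ‖a‖ * (1 / M) := by
      have h4 : ∑ i, a i • θ₀ i = ∑ i, a i • θ i - ∑ i, a i • (θ i - θ₀ i) := by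
        rw [← Finset.sum_sub_distrib]
        refine Finset.sum_congr rfl fun i _ => ?_
        rw [smul_sub]
        abel
      rw [h4]
      exact (norm_sub_le _ _).trans (by gcongr)
    have h5 : ‖gc‖ * (k * ‖a‖ * (1 / M)) ≤ 1 / 2 * ‖a‖ := by
      have h6 : ‖gc‖ * k * (1 / M) ≤ 1 / 2 := by
        rw [mul_one_div, div_le_div_iff₀ hM0 (by norm_num)]
        rw [hM]
        linarith [mul_nonneg (norm_nonneg gc) (Nat.cast_nonneg (α := ℝ) k)]
      calc _ = (‖gc‖ * k * (1 / M)) * ‖a‖ := by ring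
        _ ≤ _ := by gcongr
    have h7 := h1.trans (mul_le_mul_of_nonneg_left h3 (norm_nonneg gc))
    rw [mul_add] at h7
    linarith
  refine ⟨1 / M, by positivity, 2 * ‖gc‖, by positivity, fun θ hθ => ⟨?_, key θ hθ⟩⟩
  rw [Fintype.linearIndependent_iff]
  intro a ha i
  have h1 := key θ hθ a
  rw [ha, norm_zero, mul_zero] at h1
  have h2 : a = 0 := norm_le_zero_iff.1 h1
  rw [h2]; rfl

omit [FiniteDimensional ℝ E] in
theorem mem_span_basis {F : Submodule ℝ W} (hF : Module.finrank ℝ F = k) {θ : Fin k → W}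
    (hθ : LinearIndependent ℝ θ) (h : ∀ i, θ i ∈ F) {p : W} (hp : p ∈ F) :
    ∃ a : Fin k → ℝ, p = ∑ i, a i • θ i := by
  have h1 : Submodule.span ℝ (range θ) = F := by
    refine Submodule.eq_of_le_of_finrank_eq (Submodule.span_le.2 ?_) ?_
    · rintro _ ⟨i, rfl⟩; exact h i
    · rw [finrank_span_eq_card hθ, hF, Fintype.card_fin]
  rw [← h1] at hp
  obtain ⟨a, ha⟩ := (Submodule.mem_span_range_iff_exists_fun ℝ).1 hp
  exact ⟨a, ha.symm⟩

omit [FiniteDimensional ℝ E] in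
/-- the subspaces of the orbit -/
theorem zt_orbit {θ₀ : Fin k → W} (hθ : LinearIndependent ℝ θ₀) {F₀ : Submodule ℝ W}
    (hF : Module.finrank ℝ F₀ = k) (h : ∀ i, θ₀ i ∈ F₀) {B : E →L[ℝ] E} (hB : IsUnit B) :
    ρ.Zt θ₀ (F₀.map (ρ.rep B : W →ₗ[ℝ] W)) := by
  intro θ hθ1 hθ2
  choose φ hφ1 hφ2 using hθ2
  have h1 : LinearIndependent ℝ φ := by
    refine LinearIndependent.of_comp (ρ.rep B : W →ₗ[ℝ] W) ?_
    have h2 : (ρ.rep B : W →ₗ[ℝ] W) ∘ φ = θ := funext hφ2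
    rw [h2]
    exact hθ1
  choose c hc using fun i => mem_span_basis hF hθ h (hφ1 i)
  refine subset_closure ⟨(B, c), ⟨hB, ?_⟩, ?_⟩
  · rw [Matrix.isUnit_iff_isUnit_det, isUnit_iff_ne_zero]
    intro hdet
    obtain ⟨v, hv0, hv⟩ := Matrix.exists_vecMul_eq_zero_iff.2 hdet
    apply hv0
    funext i
    refine Fintype.linearIndependent_iff.1 h1 v ?_ i
    calc ∑ i, v i • φ i = ∑ i, v i • ∑ j, c i j • θ₀ j :=
          Finset.sum_congr rfl fun i _ => by rw [← hc i]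
      _ = ∑ j, (∑ i, v i * c i j) • θ₀ j := by
          simp only [Finset.smul_sum, smul_smul, Finset.sum_smul]
          rw [Finset.sum_comm]
      _ = 0 := by
          refine Finset.sum_eq_zero fun j _ => ?_
          have h3 := congrFun hv j
          simp only [Matrix.vecMul, dotProduct, Matrix.of_apply, Pi.zero_apply] at h3
          rw [h3, zero_smul]
  · funext i
    calc θ i = ρ.rep B (φ i) := (hφ2 i).symm
      _ = ρ.rep B (∑ j, c i j • θ₀ j) := by rw [← hc i]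
      _ = _ := by simp [act]

omit [FiniteDimensional ℝ E] in
/-- limits -/
theorem zt_lim {θ₀ : Fin k → W} {F : Submodule ℝ W}
    (h : ∀ ε : ℝ, 0 < ε → ∃ F' : Submodule ℝ W, ρ.Zt θ₀ F' ∧
      ∀ p ∈ F, ∃ q ∈ F', ‖q - p‖ ≤ ε * ‖p‖) : ρ.Zt θ₀ F := by
  intro θ hθ1 hθ2
  obtain ⟨η, hη, C, hC, hcb⟩ := coord_bound hθ1
  refine isClosed_closure.closure_subset_iff.2 Subset.rfl (Metric.mem_closure_iff.2 ?_)
  intro ε hε
  have hpos : 0 < ‖θ‖ + 1 := by positivity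
  obtain ⟨F', hF', h1⟩ := h (min η (ε / 2) / (‖θ‖ + 1)) (by positivity)
  choose ψ hψ1 hψ2 using fun i => h1 (θ i) (hθ2 i)
  have h2 : ‖ψ - θ‖ ≤ min η (ε / 2) := by
    refine (pi_norm_le_iff_of_nonneg (by positivity)).2 fun i => (hψ2 i).trans ?_
    rw [div_mul_eq_mul_div, div_le_iff₀ hpos]
    gcongr
    exact (norm_le_pi_norm θ i).trans (by linarith)
  refine ⟨ψ, hF' ψ (hcb ψ (h2.trans (min_le_left _ _))).1 hψ1, ?_⟩
  rw [dist_comm, dist_eq_norm]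
  exact (h2.trans (min_le_right _ _)).trans_lt (by linarith)

omit [FiniteDimensional ℝ E] [FiniteDimensional ℝ W] in
theorem zt_map {θ₀ : Fin k → W} {F : Submodule ℝ W} (h : ρ.Zt θ₀ F) {B : E →L[ℝ] E}
    (hB : IsUnit B) : ρ.Zt θ₀ (F.map (ρ.rep B : W →ₗ[ℝ] W)) := by
  intro θ hθ1 hθ2
  choose φ hφ1 hφ2 using hθ2
  have h1 : LinearIndependent ℝ φ := by
    refine LinearIndependent.of_comp (ρ.rep B : W →ₗ[ℝ] W) ?_
    have h2 : (ρ.rep B : W →ₗ[ℝ] W) ∘ φ = θ := funext hφ2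
    rw [h2]
    exact hθ1
  have h2 := ρ.act_Z (h φ h1 hφ1) hB (c := fun i j => if i = j then 1 else 0) (by
    have h3 : (Matrix.of (fun i j : Fin k => ((if i = j then 1 else 0) : ℝ))) = 1 := by
      ext i j; simp [Matrix.one_apply]
    rw [h3]
    exact isUnit_one)
  have h3 : ρ.act B (fun i j => if i = j then 1 else 0) φ = θ := by
    funext i
    rw [← hφ2 i]
    simp [act]
  rwa [h3] at h2

/-- **the type lemma for subspaces** -/
theorem ty_quad {θ₀ : Fin k → W} (he : ρ.Eqn θ₀) (hθ₀ : LinearIndependent ℝ θ₀)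
    {F₀ : Submodule ℝ W} (h₀ : ∀ i, θ₀ i ∈ F₀) : ∃ η > 0, ∃ C, 0 ≤ C ∧
    ∀ F : Submodule ℝ W, Module.finrank ℝ F = k → ρ.Zt θ₀ F →
    (∀ p ∈ F₀, ∃ q ∈ F, ‖q - p‖ ≤ η * ‖p‖) → ∀ F' : Submodule ℝ W, ρ.Zt θ₀ F' →
    ∀ δ : ℝ, 0 ≤ δ → δ ≤ η → (∀ p ∈ F, ∃ q ∈ F', ‖q - p‖ ≤ δ * ‖p‖) →
    ∃ Y : E →L[ℝ] E, ‖Y‖ ≤ C * δ ∧ ∀ p ∈ F, ∃ q ∈ F', ‖q - (p + ρ.d Y p)‖ ≤ C * δ ^ 2 * ‖p‖ := by
  obtain ⟨M, f, hf, hf0, hker⟩ := he
  obtain ⟨hZ, hL⟩ := ρ.eqn_data hf hf0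
  obtain ⟨η₁, hη₁, C₁, hC₁, h1⟩ := ty_local hf hZ hL hker
  obtain ⟨η₂, hη₂, C₂, hC₂, h2⟩ := coord_bound hθ₀
  set N : ℝ := ‖θ₀‖ + 1 with hN
  have hN0 : 0 < N := by positivity
  set η : ℝ := min 1 (min (η₁ / 2) (η₂ / 2) / (2 * N)) with hη
  have hη0 : 0 < η := by positivity
  have hη1 : η ≤ 1 := min_le_left _ _
  have hηN : η * (2 * N) ≤ min (η₁ / 2) (η₂ / 2) := by
    have := min_le_right (1 : ℝ) (min (η₁ / 2) (η₂ / 2) / (2 * N))
    rwa [← hη, le_div_iff₀ (by positivity)] at this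
  refine ⟨η, hη0, C₁ * (2 * N) + (k * C₁ + k * k * C₁) * (2 * N) ^ 2 * C₂, by positivity,
    fun F hFk hF hclose F' hF' δ hδ0 hδ hclose' => ?_⟩
  choose θ hθF hθ using fun i => hclose (θ₀ i) (h₀ i)
  have h3 : ‖θ - θ₀‖ ≤ η * N := by
    refine (pi_norm_le_iff_of_nonneg (by positivity)).2 fun i => (hθ i).trans ?_
    gcongr
    exact (norm_le_pi_norm θ₀ i).trans (by linarith)
  have h3' : ‖θ - θ₀‖ ≤ min (η₁ / 2) (η₂ / 2) := h3.trans (by nlinarith)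
  have hθN : ‖θ‖ ≤ 2 * N := by
    have : ‖θ‖ ≤ ‖θ - θ₀‖ + ‖θ₀‖ := by
      calc ‖θ‖ = ‖(θ - θ₀) + θ₀‖ := by simp
        _ ≤ _ := norm_add_le _ _
    nlinarith
  choose ψ hψF hψ using fun i => hclose' (θ i) (hθF i)
  have h4 : ‖ψ - θ‖ ≤ δ * (2 * N) := by
    refine (pi_norm_le_iff_of_nonneg (by positivity)).2 fun i => (hψ i).trans ?_
    gcongr
    exact (norm_le_pi_norm θ i).trans hθN
  have h4' : ‖ψ - θ‖ ≤ min (η₁ / 2) (η₂ / 2) := h4.trans (by nlinarith)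
  have hθli := h2 θ (h3'.trans ((min_le_right _ _).trans (by linarith)))
  have hθZ : θ ∈ ρ.Z θ₀ := hF θ hθli.1 hθF
  have hψ0 : ‖ψ - θ₀‖ ≤ η₂ := by
    calc ‖ψ - θ₀‖ = ‖(ψ - θ) + (θ - θ₀)‖ := by simp
      _ ≤ _ := norm_add_le _ _
      _ ≤ η₂ / 2 + η₂ / 2 := add_le_add (h4'.trans (min_le_right _ _)) (h3'.trans (min_le_right _ _))
      _ = _ := by ring
  have hψZ : ψ ∈ ρ.Z θ₀ := hF' ψ (h2 ψ hψ0).1 hψF
  obtain ⟨⟨Y, c⟩, hp1, hp2⟩ := h1 θ hθZ (h3'.trans ((min_le_left _ _).trans (by linarith))) (ψ - θ)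
    (h4'.trans ((min_le_left _ _).trans (by linarith))) (by
      rw [add_sub_cancel]; exact hZ ψ hψZ)
  have hw : C₁ * ‖ψ - θ‖ ≤ C₁ * (δ * (2 * N)) := by gcongr
  have hY : ‖Y‖ ≤ C₁ * (δ * (2 * N)) := (norm_fst_le (Y, c)).trans (hp1.trans hw)
  have hc : ‖c‖ ≤ C₁ * (δ * (2 * N)) := (norm_snd_le (Y, c)).trans (hp1.trans hw)
  have hp3 : ‖ψ - θ - ρ.L θ (Y, c)‖ ≤ C₁ * (δ * (2 * N)) ^ 2 := hp2.trans (by gcongr)
  refine ⟨Y, hY.trans ?_, fun p hp => ?_⟩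
  · have : 0 ≤ (k * C₁ + k * k * C₁) * (2 * N) ^ 2 * C₂ := by positivity
    nlinarith
  obtain ⟨a, ha⟩ := mem_span_basis hFk hθli.1 hθF hp
  have ha2 : ‖a‖ ≤ C₂ * ‖p‖ := by rw [ha]; exact hθli.2 a
  refine ⟨∑ i, a i • (ψ i - ∑ j, c i j • ψ j), ?_, ?_⟩
  · exact Submodule.sum_mem _ fun i _ => F'.smul_mem _ (F'.sub_mem (hψF i)
      (Submodule.sum_mem _ fun j _ => F'.smul_mem _ (hψF j)))
  have h5 : ∑ i, a i • (ψ i - ∑ j, c i j • ψ j) - (p + ρ.d Y p) =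
      ∑ i, a i • ((ψ - θ - ρ.L θ (Y, c)) i) - ∑ i, a i • ∑ j, c i j • (ψ - θ) j := by
    rw [ha, map_sum]
    simp only [map_smul]
    rw [← Finset.sum_add_distrib, ← Finset.sum_sub_distrib, ← Finset.sum_sub_distrib]
    refine Finset.sum_congr rfl fun i _ => ?_
    simp only [Pi.sub_apply, L_apply, smul_sub, Finset.sum_sub_distrib, smul_add]
    abel
  rw [h5]
  have h6 : ‖∑ i, a i • ((ψ - θ - ρ.L θ (Y, c)) i)‖ ≤ k * (‖a‖ * (C₁ * (δ * (2 * N)) ^ 2)) := by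
    calc _ ≤ ∑ i : Fin k, ‖a i • ((ψ - θ - ρ.L θ (Y, c)) i)‖ := norm_sum_le _ _
      _ ≤ ∑ i : Fin k, ‖a‖ * (C₁ * (δ * (2 * N)) ^ 2) := by
          refine Finset.sum_le_sum fun i _ => ?_
          rw [norm_smul]
          gcongr
          · exact norm_le_pi_norm a i
          · exact (norm_le_pi_norm _ i).trans hp3
      _ = _ := by simp
  have h7 : ‖∑ i, a i • ∑ j, c i j • (ψ - θ) j‖ ≤
      k * (‖a‖ * (k * ((C₁ * (δ * (2 * N))) * (δ * (2 * N))))) := by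
    calc _ ≤ ∑ i : Fin k, ‖a i • ∑ j, c i j • (ψ - θ) j‖ := norm_sum_le _ _
      _ ≤ ∑ i : Fin k, ‖a‖ * (k * ((C₁ * (δ * (2 * N))) * (δ * (2 * N)))) := by
          refine Finset.sum_le_sum fun i _ => ?_
          rw [norm_smul]
          gcongr
          · exact norm_le_pi_norm a i
          · calc _ ≤ ∑ j : Fin k, ‖c i j • (ψ - θ) j‖ := norm_sum_le _ _
              _ ≤ ∑ j : Fin k, (C₁ * (δ * (2 * N))) * (δ * (2 * N)) := by
                  refine Finset.sum_le_sum fun j _ => ?_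
                  rw [norm_smul]
                  gcongr
                  · exact (norm_le_pi_norm (c i) j).trans ((norm_le_pi_norm c i).trans hc)
                  · exact (norm_le_pi_norm (ψ - θ) j).trans h4
              _ = _ := by simp
      _ = _ := by simp
  calc _ ≤ _ := norm_sub_le _ _
    _ ≤ k * (‖a‖ * (C₁ * (δ * (2 * N)) ^ 2)) +
        k * (‖a‖ * (k * ((C₁ * (δ * (2 * N))) * (δ * (2 * N))))) := add_le_add h6 h7
    _ = (k * C₁ + k * k * C₁) * (2 * N) ^ 2 * δ ^ 2 * ‖a‖ := by ring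
    _ ≤ (k * C₁ + k * k * C₁) * (2 * N) ^ 2 * δ ^ 2 * (C₂ * ‖p‖) := by gcongr
    _ ≤ _ := by
        have : 0 ≤ C₁ * (2 * N) * δ ^ 2 * ‖p‖ := by positivity
        nlinarith

/-- **the type lemma for subspaces, infinitesimal form** -/
theorem ty_lin {θ₀ : Fin k → W} (he : ρ.Eqn θ₀) (hθ₀ : LinearIndependent ℝ θ₀)
    {F₀ : Submodule ℝ W} (h₀ : ∀ i, θ₀ i ∈ F₀) : ∃ η > 0, ∃ C, 0 ≤ C ∧
    ∀ F : Submodule ℝ W, Module.finrank ℝ F = k → ρ.Zt θ₀ F →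
    (∀ p ∈ F₀, ∃ q ∈ F, ‖q - p‖ ≤ η * ‖p‖) → ∀ D : W →L[ℝ] W,
    (∃ᶠ t : ℝ in 𝓝[≠] 0, ρ.Zt θ₀ (F.map ((1 + t • D : W →L[ℝ] W) : W →ₗ[ℝ] W))) →
    ∃ Y : E →L[ℝ] E, ‖Y‖ ≤ C * ‖D‖ ∧ ∀ p ∈ F, D p - ρ.d Y p ∈ F := by
  obtain ⟨M, f, hf, hf0, hker⟩ := he
  obtain ⟨hZ, hL⟩ := ρ.eqn_data hf hf0
  obtain ⟨η₁, hη₁, C₁, hC₁, h1⟩ := ty_linear hf hL hker
  obtain ⟨η₂, hη₂, C₂, hC₂, h2⟩ := coord_bound hθ₀
  set N : ℝ := ‖θ₀‖ + 1 with hN
  have hN0 : 0 < N := by positivity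
  set η : ℝ := min 1 (min (η₁ / 2) (η₂ / 2) / (2 * N)) with hη
  have hη0 : 0 < η := by positivity
  have hη1 : η ≤ 1 := min_le_left _ _
  have hηN : η * (2 * N) ≤ min (η₁ / 2) (η₂ / 2) := by
    have := min_le_right (1 : ℝ) (min (η₁ / 2) (η₂ / 2) / (2 * N))
    rwa [← hη, le_div_iff₀ (by positivity)] at this
  refine ⟨η, hη0, C₁ * (2 * N), by positivity, fun F hFk hF hclose D hD => ?_⟩
  choose θ hθF hθ using fun i => hclose (θ₀ i) (h₀ i)
  have h3 : ‖θ - θ₀‖ ≤ η * N := by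
    refine (pi_norm_le_iff_of_nonneg (by positivity)).2 fun i => (hθ i).trans ?_
    gcongr
    exact (norm_le_pi_norm θ₀ i).trans (by linarith)
  have h3' : ‖θ - θ₀‖ ≤ min (η₁ / 2) (η₂ / 2) := h3.trans (by nlinarith)
  have hθN : ‖θ‖ ≤ 2 * N := by
    have : ‖θ‖ ≤ ‖θ - θ₀‖ + ‖θ₀‖ := by
      calc ‖θ‖ = ‖(θ - θ₀) + θ₀‖ := by simp
        _ ≤ _ := norm_add_le _ _
    nlinarith
  have hθli := h2 θ (h3'.trans ((min_le_right _ _).trans (by linarith)))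
  have hθZ : θ ∈ ρ.Z θ₀ := hF θ hθli.1 hθF
  set w : Fin k → W := fun i => D (θ i) with hw
  have hwn : ‖w‖ ≤ ‖D‖ * (2 * N) := by
    refine (pi_norm_le_iff_of_nonneg (by positivity)).2 fun i => (D.le_opNorm _).trans ?_
    gcongr
    exact (norm_le_pi_norm θ i).trans hθN
  -- the derivative of `f` in the direction `w`
  have h4 : fderiv ℝ f θ w = 0 := by
    have h5 : HasDerivAt (fun t : ℝ => f (θ + t • w)) (fderiv ℝ f θ w) 0 := by
      have h6 : HasDerivAt (fun t : ℝ => θ + t • w) w 0 := by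
        simpa using ((hasDerivAt_id (0 : ℝ)).smul_const w).const_add θ
      have h7 : HasFDerivAt f (fderiv ℝ f θ) (θ + (0 : ℝ) • w) := by
        rw [zero_smul, add_zero]
        exact ((hf.differentiable (by norm_num)) θ).hasFDerivAt
      exact h7.comp_hasDerivAt (0 : ℝ) h6
    rw [hasDerivAt_iff_tendsto_slope] at h5
    have h8 : ∀ᶠ t : ℝ in 𝓝[≠] 0, ‖θ + t • w - θ₀‖ ≤ η₂ := by
      have h9 : Tendsto (fun t : ℝ => ‖θ + t • w - θ₀‖) (𝓝 0) (𝓝 ‖θ - θ₀‖) := by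
        have : Continuous fun t : ℝ => ‖θ + t • w - θ₀‖ := by fun_prop
        simpa using this.tendsto 0
      have h10 : ‖θ - θ₀‖ < η₂ := lt_of_le_of_lt (h3'.trans (min_le_right _ _)) (by linarith)
      exact ((h9.mono_left nhdsWithin_le_nhds).eventually (gt_mem_nhds h10)).mono fun t h => h.le
    have h11 : ∃ᶠ t : ℝ in 𝓝[≠] 0, slope (fun t : ℝ => f (θ + t • w)) 0 t ∈ ({0} : Set _) := by
      refine (hD.and_eventually h8).mono fun t ht => ?_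
      have h12 : θ + t • w ∈ ρ.Z θ₀ := by
        refine ht.1 _ (h2 _ ht.2).1 fun i => ⟨θ i, hθF i, ?_⟩
        simp [hw]
      have h13 : f (θ + t • w) = 0 := hZ _ h12
      have h14 : f (θ + (0 : ℝ) • w) = 0 := by rw [zero_smul, add_zero]; exact hZ θ hθZ
      rw [mem_singleton_iff, slope_def_module, h13, h14, sub_self, smul_zero]
    have h15 := isClosed_singleton.mem_of_frequently_of_tendsto h11 h5
    exact h15
  obtain ⟨⟨Y, c⟩, hp1, hp2⟩ := h1 θ hθZ (h3'.trans ((min_le_left _ _).trans (by linarith))) w h4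
  refine ⟨Y, (norm_fst_le (Y, c)).trans (hp1.trans ?_), fun p hp => ?_⟩
  · calc C₁ * ‖w‖ ≤ C₁ * (‖D‖ * (2 * N)) := by gcongr
      _ = _ := by ring
  obtain ⟨a, ha⟩ := mem_span_basis hFk hθli.1 hθF hp
  have h5 : D p - ρ.d Y p = ∑ i, a i • ∑ j, c i j • θ j := by
    rw [ha, map_sum, map_sum]
    simp only [map_smul]
    rw [← Finset.sum_sub_distrib]
    refine Finset.sum_congr rfl fun i _ => ?_
    rw [← smul_sub]
    congr 1
    have h6 : D (θ i) = ρ.d Y (θ i) + ∑ j, c i j • θ j := congrFun hp2 i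
    rw [h6]
    abel
  rw [h5]
  exact Submodule.sum_mem _ fun i _ => F.smul_mem _ (Submodule.sum_mem _ fun j _ =>
    F.smul_mem _ (hθF j))

end PRep

end Vale.Agent.P207.H734
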