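import Vale.Agent.P207.H734.TyC
import Vale.Agent.P207.H80.Eqn
import Vale.Agent.P207.H106.Aff.Use1F
import Vale.Agent.P207.H686.K.Close

/-!
# P207, strict quarter pinching: the closure form (C1) of affine sections, composed

`rep_d` : the derived action is equivariant. `tyA'` : 106's `TyA`. `afC_of` : 387's `AfC` from a
frame with dense chains and backward returns; `tyA0` : the special case `K = {v₀}`.
`ty_quad_D` : the type lemma for the S-bundle without the hypothesis of closeness.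
-/

set_option linter.all false

open Metric Set Filter Topology
open scoped ContDiff

namespace Vale.Agent.P207.H734

open Vale.Agent.P207.H686 Vale.Agent.P207.H106.Aff

theorem PRep.rep_d {E W : Type*} [NormedAddCommGroup E] [NormedSpace ℝ E]
    [NormedAddCommGroup W] [NormedSpace ℝ W] (ρ : PRep E W) (A : E ≃L[ℝ] E) (Y : E →L[ℝ] E)
    (s : W) : ρ.rep (A.symm : E →L[ℝ] E) (ρ.d Y s) = ρ.d (cj A Y) (ρ.rep (A.symm : E →L[ℝ] E) s) := by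
  have h1 : HasDerivAt (fun t : ℝ => ρ.rep (1 + t • Y) s) (ρ.d Y s) 0 := by
    have h4 := (ρ.der Y).clm_apply (hasDerivAt_const (0 : ℝ) s)
    simpa using h4
  have h2 : HasDerivAt (fun t : ℝ => ρ.rep (1 + t • cj A Y) (ρ.rep (A.symm : E →L[ℝ] E) s))
      (ρ.d (cj A Y) (ρ.rep (A.symm : E →L[ℝ] E) s)) 0 := by
    have h4 := (ρ.der (cj A Y)).clm_apply
      (hasDerivAt_const (0 : ℝ) (ρ.rep (A.symm : E →L[ℝ] E) s))
    simpa using h4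
  have h3 := (ρ.rep (A.symm : E →L[ℝ] E)).hasFDerivAt.comp_hasDerivAt (0 : ℝ) h1
  refine h3.unique (h2.congr_of_eventuallyEq (Eventually.of_forall fun t => ?_))
  show ρ.rep (A.symm : E →L[ℝ] E) (ρ.rep (1 + t • Y) s) =
    ρ.rep (1 + t • cj A Y) (ρ.rep (A.symm : E →L[ℝ] E) s)
  have h5 := DFunLike.congr_fun (ρ.mul (A.symm : E →L[ℝ] E) (1 + t • Y)) s
  have h6 := DFunLike.congr_fun (ρ.mul (1 + t • cj A Y) (A.symm : E →L[ℝ] E)) s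
  have h7 : (1 + t • Y) * (A.symm : E →L[ℝ] E) = (A.symm : E →L[ℝ] E) * (1 + t • cj A Y) := by
    refine ContinuousLinearMap.ext fun x => ?_
    show A.symm x + t • Y (A.symm x) = A.symm (x + t • A (Y (A.symm x)))
    rw [map_add, map_smul, A.symm_apply_apply]
  rw [h7] at h5
  exact h5.symm.trans h6

section

variable {k0 : ℕ} {E W X : Type} [NormedAddCommGroup E] [NormedSpace ℝ E]
  [FiniteDimensional ℝ E] [NormedAddCommGroup W] [NormedSpace ℝ W] [FiniteDimensional ℝ W]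

theorem hrho_of {D : ZDk k0 E W X} {ρ : PRep E W} (hρ : HasRep D ρ) {v A L v'}
    (h : D.St v A L v') (Y : E →L[ℝ] E) (s : W) : L ((-ρ.d) Y s) = (-ρ.d) (cj A Y) (L s) := by
  show L (-(ρ.d Y s)) = -(ρ.d (cj A Y) (L s))
  rw [map_neg, hρ.st h, hρ.st h, ρ.rep_d]

theorem smClose (D : ZDk k0 E W X) : SmClose D := fun w _ hη => D.sm_close w hη

/-- **the type lemma for the S-bundle** -/
theorem ty_quad_D {D : ZDk k0 E W X} {ρ : PRep E W} (hρ : HasRep D ρ) (hpol : ρ.IsPol) {v₀ : X}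
    (hd : DenseFrom D v₀) : ∃ ε > 0, ∃ η > 0, ∃ C, 0 ≤ C ∧ ∀ v,
    (∀ x ∈ ball (0 : E) 1, ‖D.N v x - D.N v₀ x‖ ≤ ε) → ∀ (y : X) (H : E ≃L[ℝ] E) (δ : ℝ),
    0 ≤ δ → δ ≤ η → (∀ p ∈ D.Sm v, ∃ q ∈ D.Sm y, ‖ρ.rep (H : E →L[ℝ] E) q - p‖ ≤ δ * ‖p‖) →
    ∃ Y : E →L[ℝ] E, ‖Y‖ ≤ C * δ ∧ ∀ p ∈ D.Sm v, ∃ q ∈ D.Sm y,
      ‖ρ.rep (H : E →L[ℝ] E) q - (p + ρ.d Y p)‖ ≤ C * δ ^ 2 * ‖p‖ :=
  ty_quad_sm hρ.to0 (smClose D) hd fun _ θ₀ => hpol.eqn θ₀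

/-- 106's `TyA` on a neighbourhood of `v₀` -/
theorem tyA' {D : ZDk k0 E W X} {ρ : PRep E W} (hρ : HasRep D ρ) (hpol : ρ.aff.IsPol) {k1 : ℕ}
    (hgap : D.lam ^ k1 * (D.Lam * D.mu) < 1) {v₀ : X} (hd : DenseFrom D v₀) :
    ∃ ε > 0, ∃ C, 0 ≤ C ∧
      TyA D k1 hgap (-ρ.d) {v | ∀ x ∈ ball (0 : E) 1, ‖D.N v x - D.N v₀ x‖ ≤ ε} C := by
  obtain ⟨ε, hε, C, hC, h⟩ := tyA hρ hgap (smClose _) hd fun _ θ₀ => hpol.eqn θ₀
  refine ⟨ε, hε, C, hC, fun v hv u => ?_⟩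
  obtain ⟨Y, hY1, hY2⟩ := h v hv u
  refine ⟨-Y, by rwa [norm_neg], fun p hp => ?_⟩
  have h1 : rhoA (-ρ.d) (-Y) p = ρ.aff.d Y p := by
    rw [ρ.aff_d]
    refine Prod.ext ?_ (ContinuousLinearMap.ext fun x => ?_)
    · show -(ρ.d (-Y) p.1) = ρ.d Y p.1
      rw [map_neg]
      simp
    · show -(ρ.d (-Y) (p.2 x)) - p.2 ((-Y) x) = ρ.d Y (p.2 x) + p.2 (Y x)
      rw [map_neg]
      simp
  rw [h1]
  exact hY2 p hp

/-- the special case `K = {v₀}` -/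
theorem tyA0 {D : ZDk k0 E W X} {ρ : PRep E W} (hρ : HasRep D ρ) (hpol : ρ.aff.IsPol) {k1 : ℕ}
    (hgap : D.lam ^ k1 * (D.Lam * D.mu) < 1) {v₀ : X} (hd : DenseFrom D v₀) :
    ∃ C, 0 ≤ C ∧ TyA D k1 hgap (-ρ.d) {v₀} C := by
  obtain ⟨ε, hε, C, hC, h⟩ := tyA' hρ hpol hgap hd
  refine ⟨C, hC, fun v hv => h v ?_⟩
  rw [mem_singleton_iff] at hv
  subst hv
  intro x _
  rw [sub_self, norm_zero]
  exact hε.le

/-- **the closure form (C1) of affine sections**, from backward returns -/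
theorem afC_of {D : ZDk k0 E W X} {ρ : PRep E W} (hρ : HasRep D ρ) (hpol : ρ.aff.IsPol) {k1 : ℕ}
    (hgap : D.lam ^ k1 * (D.Lam * D.mu) < 1) (hmu : D.lam ^ 2 * D.mu < 1) {v₀ : X}
    (hd : DenseFrom D v₀) (hrec : ∀ ε : ℝ, 0 < ε → ∀ n0 : ℕ, ∃ n ≥ n0, ∃ v,
      (∀ x ∈ ball (0 : E) 1, ‖D.N v x - D.N v₀ x‖ ≤ ε) ∧ ∃ A L, Ch D.St v n A L v₀) :
    (∀ v, (D.aff k1 hgap).Sm v = AffS E (D.Sm v)) ∧ ∀ i ≥ k1, H387.Q4.AfC D i := by
  obtain ⟨ε, hε, C, hC, h⟩ := tyA' hρ hpol hgap hd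
  have h1 : ∀ v, (D.aff k1 hgap).Sm v = AffS E (D.Sm v) :=
    aff_sm D hgap (rho := -ρ.d) (fun h Y s => hrho_of hρ h Y s) hmu hC h
      (fun n0 => by
        obtain ⟨n, hn, v, hv, A, L, hc⟩ := hrec ε hε n0
        exact ⟨n, hn, v, hv, A, L, hc⟩)
  exact ⟨h1, afC D hgap h1⟩

/-- **the affine extension adds no new smooth elements**: no recurrence needed -/
theorem aff_sm_final {D : ZDk k0 E W X} {ρ : PRep E W} (hρ : HasRep D ρ) (hpol : ρ.aff.IsPol)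
    {k1 : ℕ} (hgap : D.lam ^ k1 * (D.Lam * D.mu) < 1) (hmu : D.lam ^ 2 * D.mu < 1) {v₀ : X}
    (hd : DenseFrom D v₀) (v : X) : (D.aff k1 hgap).Sm v = AffS E (D.Sm v) := by
  obtain ⟨C, hC, hT⟩ := tyA0 hρ hpol hgap hd
  exact aff_sm_fwd D hgap (rho := -ρ.d) (fun h Y s => hrho_of hρ h Y s) hmu hC hT v

/-- **(C1) for affine sections, 387's closure form**: no recurrence needed -/
theorem afC_final {D : ZDk k0 E W X} {ρ : PRep E W} (hρ : HasRep D ρ) (hpol : ρ.aff.IsPol)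
    {k1 : ℕ} (hgap : D.lam ^ k1 * (D.Lam * D.mu) < 1) (hmu : D.lam ^ 2 * D.mu < 1) {v₀ : X}
    (hd : DenseFrom D v₀) : ∀ i ≥ k1, H387.Q4.AfC D i :=
  afC D hgap (aff_sm_final hρ hpol hgap hmu hd)

end

end Vale.Agent.P207.H734
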